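import Mathlib

open Polynomial IntermediateField

namespace Vale.Agent.P184

noncomputable section

open Classical in
/-- the absolute value of rational functions given by the degree -/
def ratAbv (k : Type*) [Field k] : AbsoluteValue (RatFunc k) ℝ where
  toFun x := if x = 0 then 0 else (2 : ℝ) ^ (x.intDegree)
  map_mul' x y := by
    by_cases hx : x = 0
    · simp [hx]
    by_cases hy : y = 0
    · simp [hy]
    rw [if_neg hx, if_neg hy, if_neg (mul_ne_zero hx hy), RatFunc.intDegree_mul hx hy,
      zpow_add₀ (by norm_num)]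
  nonneg' x := by
    split_ifs
    · exact le_rfl
    · positivity
  eq_zero' x := by
    constructor
    · intro h
      by_contra hx
      rw [if_neg hx] at h
      have : (0 : ℝ) < (2 : ℝ) ^ (x.intDegree) := by positivity
      linarith
    · intro h; simp [h]
  add_le' x y := by
    by_cases hx : x = 0
    · simp [hx]
    by_cases hy : y = 0
    · simp [hy]
    by_cases hxy : x + y = 0
    · rw [if_pos hxy, if_neg hx, if_neg hy]; positivity
    rw [if_neg hx, if_neg hy, if_neg hxy]
    have h := RatFunc.intDegree_add_le hy hxy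
    have h1 : (2 : ℝ) ^ ((x + y).intDegree) ≤ (2 : ℝ) ^ (max x.intDegree y.intDegree) :=
      zpow_le_zpow_right₀ (by norm_num) h
    refine h1.trans ?_
    rcases le_total x.intDegree y.intDegree with h2 | h2
    · rw [max_eq_right h2]
      have : (0 : ℝ) < (2 : ℝ) ^ (x.intDegree) := by positivity
      linarith
    · rw [max_eq_left h2]
      have : (0 : ℝ) < (2 : ℝ) ^ (y.intDegree) := by positivity
      linarith

open Classical in
theorem ratAbv_X (k : Type*) [Field k] : ratAbv k (RatFunc.X) = 2 := by
  show (if (RatFunc.X : RatFunc k) = 0 then (0 : ℝ) else (2 : ℝ) ^ ((RatFunc.X : RatFunc k).intDegree)) = 2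
  rw [if_neg RatFunc.X_ne_zero, RatFunc.intDegree_X]
  norm_num

theorem exists_abv_numberField (F : Type*) [Field F] [NumberField F] (x : F)
    (hx : ∀ m : ℕ, 0 < m → x ^ m ≠ 1) : ∃ v : AbsoluteValue F ℝ, v x ≠ 1 := by
  by_cases hint : IsIntegral ℤ x
  · by_contra hcon
    push Not at hcon
    obtain ⟨n, hn, h1⟩ := NumberField.Embeddings.pow_eq_one_of_norm_eq_one F ℂ hint
      (fun φ => hcon (NumberField.place φ))
    exact hx n hn h1
  · have h1 : ∃ P : IsDedekindDomain.HeightOneSpectrum (NumberField.RingOfIntegers F),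
        ¬ P.valuation F x ≤ 1 := by
      by_contra hcon
      push Not at hcon
      obtain ⟨y, hy⟩ := IsDedekindDomain.HeightOneSpectrum.mem_integers_of_valuation_le_one
        (R := NumberField.RingOfIntegers F) (K := F) x hcon
      apply hint
      rw [← hy]
      exact y.isIntegral_coe
    obtain ⟨P, hP⟩ := h1
    refine ⟨NumberField.HeightOneSpectrum.adicAbv F P, ?_⟩
    rw [NumberField.HeightOneSpectrum.adicAbv_def]
    push Not at hP
    have h2 := WithZeroMulInt.toNNReal_strictMono
      (NumberField.HeightOneSpectrum.one_lt_absNorm_nnreal P) hP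
    rw [map_one] at h2
    intro h3
    have h4 : (WithZeroMulInt.toNNReal (NumberField.HeightOneSpectrum.absNorm_ne_zero P)
      (P.valuation F x) : NNReal) = 1 := by exact_mod_cast h3
    rw [h4] at h2
    exact lt_irrefl _ h2

/-- every element that is not a root of unity is detected by an absolute value of the field it
generates -/
theorem exists_abv {K : Type*} [Field K] (l : K) (hl0 : l ≠ 0)
    (hl : ∀ m : ℕ, 0 < m → l ^ m ≠ 1) :
    ∃ (k₁ : Subfield K) (l₁ : k₁) (v : AbsoluteValue k₁ ℝ), (l₁ : K) = l ∧ v l₁ ≠ 1 := by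
  have key : ∀ (k₀ : Type) [Field k₀] [Algebra k₀ K],
      (IsAlgebraic k₀ l → ∃ v : AbsoluteValue k₀⟮l⟯ ℝ, v (AdjoinSimple.gen k₀ l) ≠ 1) →
      ∃ (k₁ : Subfield K) (l₁ : k₁) (v : AbsoluteValue k₁ ℝ), (l₁ : K) = l ∧ v l₁ ≠ 1 := by
    intro k₀ _ _ h
    by_cases halg : IsAlgebraic k₀ l
    · obtain ⟨v, hv⟩ := h halg
      exact ⟨k₀⟮l⟯.toSubfield, AdjoinSimple.gen k₀ l, v, rfl, hv⟩
    · have htr : Transcendental k₀ l := halg
      let f := (RatFunc.algEquivOfTranscendental l htr).symm.toRingEquiv.toRingHom
      have hf : Function.Injective f := (RatFunc.algEquivOfTranscendental l htr).symm.injective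
      refine ⟨k₀⟮l⟯.toSubfield, AdjoinSimple.gen k₀ l, (ratAbv k₀).comp hf, rfl, ?_⟩
      have : f (AdjoinSimple.gen k₀ l) = RatFunc.X :=
        RatFunc.algEquivOfTranscendental_symm_gen l htr
      show ratAbv k₀ (f (AdjoinSimple.gen k₀ l)) ≠ 1
      rw [this, ratAbv_X]
      norm_num
  obtain ⟨p, hp⟩ := CharP.exists K
  rcases CharP.char_is_prime_or_zero K p with hprime | hzero
  · haveI : Fact p.Prime := ⟨hprime⟩
    letI : Algebra (ZMod p) K := ZMod.algebra K p
    refine key (ZMod p) (fun halg => ?_)
    exfalso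
    haveI : FiniteDimensional (ZMod p) (ZMod p)⟮l⟯ :=
      IntermediateField.adjoin.finiteDimensional halg.isIntegral
    haveI : Finite (ZMod p)⟮l⟯ := Module.finite_of_finite (ZMod p)
    have hne : (AdjoinSimple.gen (ZMod p) l) ≠ 0 := by
      intro h0
      apply hl0
      have := congrArg Subtype.val h0
      simpa using this
    have hfin : IsOfFinOrder (Units.mk0 _ hne) := isOfFinOrder_of_finite _
    obtain ⟨n, hn, h1⟩ := isOfFinOrder_iff_pow_eq_one.mp hfin
    apply hl n hn
    have h2 := congrArg Units.val h1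
    have h3 := congrArg Subtype.val h2
    simpa using h3
  · subst hzero
    haveI : CharZero K := CharP.charP_to_charZero K
    refine key ℚ (fun halg => ?_)
    haveI : FiniteDimensional ℚ ℚ⟮l⟯ :=
      IntermediateField.adjoin.finiteDimensional halg.isIntegral
    haveI : NumberField ℚ⟮l⟯ := ⟨⟩
    refine exists_abv_numberField ℚ⟮l⟯ _ (fun m hm h1 => hl m hm ?_)
    have h3 := congrArg Subtype.val h1
    simpa using h3

end

end Vale.Agent.P184
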