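import Mathlib

namespace Vale.Agent.P184

/-- A real function is bounded. -/
def Bdd {Z : Type*} (f : Z → ℝ) : Prop := ∃ C : ℝ, ∀ x, |f x| ≤ C

/-- `Z` is amenable: there is a right invariant mean on the bounded real functions on `Z`. -/
def Amenable (Z : Type*) [Group Z] : Prop :=
  ∃ m : (Z → ℝ) → ℝ,
    (∀ f g, Bdd f → Bdd g → m (fun x => f x + g x) = m f + m g) ∧
    (∀ (c : ℝ) f, Bdd f → m (fun x => c * f x) = c * m f) ∧
    (∀ f, Bdd f → (∀ x, 0 ≤ f x) → 0 ≤ m f) ∧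
    m (fun _ => 1) = 1 ∧
    (∀ f, Bdd f → ∀ z, m (fun x => f (x * z)) = m f)

end Vale.Agent.P184
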