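import Mathlib

open Filter Topology MonoidAlgebra

namespace Vale.Agent.P184

noncomputable section

variable {G : Type*} {R : Type*} [NormedRing R]

/-- additive lift -/
def alift {N : Type*} [AddCommMonoid N] (f : G → R →+ N) : MonoidAlgebra R G →+ N :=
  (Finsupp.liftAddHom f).comp (MonoidAlgebra.coeffAddEquiv (R := R) (M := G)).toAddMonoidHom

theorem alift_apply {N : Type*} [AddCommMonoid N] (f : G → R →+ N) (x : MonoidAlgebra R G) :
    alift f x = x.coeff.sum fun g a => f g a := rfl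

@[simp] theorem alift_single {N : Type*} [AddCommMonoid N] (f : G → R →+ N) (g : G) (a : R) :
    alift f (single g a) = f g a := by
  rw [alift_apply]
  simp

/-- weighted norm -/
def Nw (w : G → ℝ) (x : MonoidAlgebra R G) : ℝ := x.coeff.sum fun g a => w g * ‖a‖

theorem Nw_eq_of_subset (w : G → ℝ) (x : MonoidAlgebra R G) {s : Finset G}
    (hs : x.coeff.support ⊆ s) : Nw w x = ∑ g ∈ s, w g * ‖x.coeff g‖ := by
  unfold Nw
  exact Finsupp.sum_of_support_subset _ hs _ (by intro i _; simp)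

theorem Nw_nonneg {w : G → ℝ} (hw : ∀ g, 0 ≤ w g) (x : MonoidAlgebra R G) : 0 ≤ Nw w x := by
  unfold Nw
  exact Finset.sum_nonneg fun g _ => mul_nonneg (hw g) (norm_nonneg _)

@[simp] theorem Nw_zero (w : G → ℝ) : Nw w (0 : MonoidAlgebra R G) = 0 := by
  unfold Nw; simp

@[simp] theorem Nw_single (w : G → ℝ) (g : G) (a : R) : Nw w (single g a) = w g * ‖a‖ := by
  unfold Nw; simp

theorem Nw_add_le {w : G → ℝ} (hw : ∀ g, 0 ≤ w g) (x y : MonoidAlgebra R G) :
    Nw w (x + y) ≤ Nw w x + Nw w y := by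
  classical
  set s := x.coeff.support ∪ y.coeff.support with hs
  have h1 : (x + y).coeff.support ⊆ s := by
    rw [MonoidAlgebra.coeff_add]; exact Finsupp.support_add
  rw [Nw_eq_of_subset w _ h1, Nw_eq_of_subset w x (s := s) Finset.subset_union_left,
    Nw_eq_of_subset w y (s := s) Finset.subset_union_right, ← Finset.sum_add_distrib]
  refine Finset.sum_le_sum fun g _ => ?_
  rw [← mul_add]
  refine mul_le_mul_of_nonneg_left ?_ (hw g)
  simpa using norm_add_le (x.coeff g) (y.coeff g)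

theorem Nw_neg (w : G → ℝ) (x : MonoidAlgebra R G) : Nw w (-x) = Nw w x := by
  have h1 : (-x).coeff.support ⊆ x.coeff.support := by
    rw [MonoidAlgebra.coeff_neg, Finsupp.support_neg]
  rw [Nw_eq_of_subset w _ h1, Nw_eq_of_subset w x (s := x.coeff.support) (Finset.Subset.refl _)]
  refine Finset.sum_congr rfl fun g _ => ?_
  simp

theorem Nw_sub_le {w : G → ℝ} (hw : ∀ g, 0 ≤ w g) (x y : MonoidAlgebra R G) :
    Nw w (x - y) ≤ Nw w x + Nw w y := by
  rw [sub_eq_add_neg]
  exact (Nw_add_le hw _ _).trans (by rw [Nw_neg])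

theorem Nw_sum_le {w : G → ℝ} (hw : ∀ g, 0 ≤ w g) {J : Type*} (s : Finset J)
    (f : J → MonoidAlgebra R G) : Nw w (∑ j ∈ s, f j) ≤ ∑ j ∈ s, Nw w (f j) := by
  classical
  induction s using Finset.induction_on with
  | empty => simp
  | insert a s ha ih =>
    rw [Finset.sum_insert ha, Finset.sum_insert ha]
    exact (Nw_add_le hw _ _).trans (by linarith)

variable [Group G]

theorem Nw_mul_le_aux {w : G → ℝ} (hw : ∀ g, 0 ≤ w g) (x y : MonoidAlgebra R G) :
    Nw w (x * y) ≤ ∑ g ∈ x.coeff.support, ∑ h ∈ y.coeff.support,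
      w (g * h) * (‖x.coeff g‖ * ‖y.coeff h‖) := by
  rw [MonoidAlgebra.mul_def]
  unfold Finsupp.sum
  refine (Nw_sum_le hw _ _).trans (Finset.sum_le_sum fun g _ => ?_)
  refine (Nw_sum_le hw _ _).trans (Finset.sum_le_sum fun h _ => ?_)
  rw [Nw_single]
  exact mul_le_mul_of_nonneg_left (norm_mul_le _ _) (hw _)

/-- the plain l1 norm -/
abbrev N1 (x : MonoidAlgebra R G) : ℝ := Nw (fun _ => (1 : ℝ)) x

theorem N1_nonneg (x : MonoidAlgebra R G) : 0 ≤ N1 x := Nw_nonneg (fun _ => zero_le_one) x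

theorem N1_add_le (x y : MonoidAlgebra R G) : N1 (x + y) ≤ N1 x + N1 y :=
  Nw_add_le (fun _ => zero_le_one) x y

theorem N1_sub_le (x y : MonoidAlgebra R G) : N1 (x - y) ≤ N1 x + N1 y :=
  Nw_sub_le (fun _ => zero_le_one) x y

theorem N1_mul_le (x y : MonoidAlgebra R G) : N1 (x * y) ≤ N1 x * N1 y := by
  refine (Nw_mul_le_aux (fun _ => zero_le_one) x y).trans (le_of_eq ?_)
  unfold N1 Nw Finsupp.sum
  rw [Finset.sum_mul_sum]
  simp

theorem Nw_mul_le {w : G → ℝ} (hw : ∀ g, 0 ≤ w g) (hadd : ∀ g h, w (g * h) ≤ w g + w h)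
    (x y : MonoidAlgebra R G) : Nw w (x * y) ≤ Nw w x * N1 y + N1 x * Nw w y := by
  refine (Nw_mul_le_aux hw x y).trans ?_
  unfold N1 Nw Finsupp.sum
  rw [Finset.sum_mul_sum, Finset.sum_mul_sum, ← Finset.sum_add_distrib]
  refine Finset.sum_le_sum fun g _ => ?_
  rw [← Finset.sum_add_distrib]
  refine Finset.sum_le_sum fun h _ => ?_
  have h1 : 0 ≤ ‖x.coeff g‖ * ‖y.coeff h‖ := by positivity
  have := mul_le_mul_of_nonneg_right (hadd g h) h1
  linarith

/-- functional attached to a set -/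
def TS (t : R →+ ℂ) (S : Set G) : MonoidAlgebra R G →+ ℂ :=
  open Classical in alift fun g => if g ∈ S then t else 0

theorem norm_alift_le {f : G → R →+ ℂ} {w : G → ℝ} {K : ℝ}
    (hf : ∀ g a, ‖f g a‖ ≤ K * (w g * ‖a‖)) (x : MonoidAlgebra R G) :
    ‖alift f x‖ ≤ K * Nw w x := by
  rw [alift_apply]
  unfold Nw Finsupp.sum
  rw [Finset.mul_sum]
  refine (norm_sum_le _ _).trans (Finset.sum_le_sum fun g _ => hf g _)

theorem norm_TS_le {t : R →+ ℂ} {K : ℝ} (ht : ∀ a, ‖t a‖ ≤ K * ‖a‖) (S : Set G)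
    (x : MonoidAlgebra R G) : ‖TS t S x‖ ≤ K * N1 x := by
  classical
  have hK : ∀ a : R, 0 ≤ K * ‖a‖ := fun a => (norm_nonneg _).trans (ht a)
  unfold TS
  refine norm_alift_le (fun g a => ?_) x
  by_cases h : g ∈ S
  · simpa [h] using ht a
  · simpa [h] using hK a

/-- the bilinear form -/
def Psi (t : R →+ ℂ) (ψ : G → G → ℝ) : MonoidAlgebra R G →+ MonoidAlgebra R G →+ ℂ :=
  alift fun k => AddMonoidHom.mk' (fun a => alift fun g =>
    (AddMonoidHom.mulLeft (ψ k g : ℂ)).comp (t.comp (AddMonoidHom.mulLeft a))) (by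
      intro a b
      ext x
      simp [alift, add_mul, mul_add])

@[simp] theorem Psi_single (t : R →+ ℂ) (ψ : G → G → ℝ) (k g : G) (a b : R) :
    Psi t ψ (single k a) (single g b) = (ψ k g : ℂ) * t (a * b) := by
  unfold Psi
  simp

theorem Psi_mul {t : R →+ ℂ} (htc : ∀ a b, t (a * b) = t (b * a)) {ψ : G → G → ℝ}
    (hψ : ∀ k g h, ψ k (g * h) = ψ (h * k) g + ψ (k * g) h) (a c d : MonoidAlgebra R G) :
    Psi t ψ a (c * d) = Psi t ψ (d * a) c + Psi t ψ (a * c) d := by
  induction a using MonoidAlgebra.induction_linear with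
  | zero => simp
  | add a a' iha iha' =>
    simp only [map_add, AddMonoidHom.add_apply, mul_add, add_mul, iha, iha']; abel
  | single k α =>
    induction c using MonoidAlgebra.induction_linear with
    | zero => simp
    | add a a' iha iha' =>
      simp only [map_add, AddMonoidHom.add_apply, mul_add, add_mul, iha, iha']; abel
    | single g β =>
      induction d using MonoidAlgebra.induction_linear with
      | zero => simp
      | add a a' iha iha' =>
        simp only [map_add, AddMonoidHom.add_apply, mul_add, add_mul, iha, iha']; abel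
      | single h γ =>
        simp only [MonoidAlgebra.single_mul_single, Psi_single, hψ]
        have h1 : t (γ * α * β) = t (α * β * γ) := by rw [mul_assoc, htc]
        rw [h1, ← mul_assoc α β γ]
        push_cast
        ring

theorem norm_Psi_le {t : R →+ ℂ} {K : ℝ} (hK0 : 0 ≤ K) (ht : ∀ a, ‖t a‖ ≤ K * ‖a‖) {ψ : G → G → ℝ}
    {w : G → ℝ} (hψ : ∀ k g, |ψ k g| ≤ w g) (a c : MonoidAlgebra R G) :
    ‖Psi t ψ a c‖ ≤ K * (N1 a * Nw w c) := by
  have hw : ∀ g, 0 ≤ w g := fun g => (abs_nonneg _).trans (hψ 1 g)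
  have key : ∀ k α, ‖Psi t ψ (single k α) c‖ ≤ K * ‖α‖ * Nw w c := by
    intro k α
    unfold Psi
    rw [alift_single]
    simp only [AddMonoidHom.mk'_apply]
    refine norm_alift_le (fun g b => ?_) c
    simp only [AddMonoidHom.comp_apply, AddMonoidHom.coe_mulLeft, norm_mul, Complex.norm_real,
      Real.norm_eq_abs]
    calc |ψ k g| * ‖t (α * b)‖ ≤ w g * (K * (‖α‖ * ‖b‖)) := by
          refine mul_le_mul (hψ k g) ?_ (norm_nonneg _) (hw g)
          exact (ht _).trans (mul_le_mul_of_nonneg_left (norm_mul_le _ _) hK0)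
      _ = K * ‖α‖ * (w g * ‖b‖) := by ring
  have hsum : a = ∑ k ∈ a.coeff.support, single k (a.coeff k) := by
    conv_lhs => rw [← MonoidAlgebra.sum_coeff_single a]
    rfl
  calc ‖Psi t ψ a c‖ = ‖∑ k ∈ a.coeff.support, Psi t ψ (single k (a.coeff k)) c‖ := by
        conv_lhs => rw [hsum]
        rw [map_sum, AddMonoidHom.finsetSum_apply]
    _ ≤ ∑ k ∈ a.coeff.support, K * ‖a.coeff k‖ * Nw w c :=
        (norm_sum_le _ _).trans (Finset.sum_le_sum fun k _ => key k _)
    _ = K * (N1 a * Nw w c) := by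
        unfold N1 Nw Finsupp.sum
        rw [← Finset.sum_mul, ← Finset.mul_sum]
        simp only [one_mul]
        ring

/-- the polynomial `3x^2 - 2x^3` -/
def P (x : MonoidAlgebra R G) : MonoidAlgebra R G :=
  (x * x + x * x + x * x) - (x * x * x + x * x * x)

theorem P_sub (x : MonoidAlgebra R G) :
    P x - x = (x * x - x) - ((x * x - x) * x + (x * x - x) * x) := by
  unfold P; noncomm_ring

theorem P_idem (x : MonoidAlgebra R G) :
    P x * P x - P x = (x * x - x) * (x * x - x) * ((x * x - x) + (x * x - x) + (x * x - x)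
      + (x * x - x)) - ((x * x - x) * (x * x - x) + (x * x - x) * (x * x - x)
      + (x * x - x) * (x * x - x)) := by
  unfold P; noncomm_ring

theorem N1_P_sub_le (x : MonoidAlgebra R G) :
    N1 (P x - x) ≤ N1 (x * x - x) * (2 * N1 x + 1) := by
  rw [P_sub]
  have h1 := N1_mul_le (x * x - x) x
  have h2 := N1_add_le ((x * x - x) * x) ((x * x - x) * x)
  have h3 := N1_sub_le (x * x - x) ((x * x - x) * x + (x * x - x) * x)
  nlinarith

theorem N1_P_le (x : MonoidAlgebra R G) :
    N1 (P x) ≤ N1 x + N1 (x * x - x) * (2 * N1 x + 1) := by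
  have h := N1_add_le (P x - x) x
  rw [sub_add_cancel] at h
  have := N1_P_sub_le x
  linarith

theorem N1_P_idem_le (x : MonoidAlgebra R G) :
    N1 (P x * P x - P x) ≤ N1 (x * x - x) ^ 2 * (4 * N1 (x * x - x) + 3) := by
  rw [P_idem]
  set y := x * x - x with hy
  have h0 : 0 ≤ N1 y := N1_nonneg y
  have h1 := N1_mul_le y y
  have h2 := N1_mul_le (y * y) (y + y + y + y)
  have h3 := N1_add_le (y + y + y) y
  have h4 := N1_add_le (y + y) y
  have h5 := N1_add_le y y
  have h6 := N1_add_le (y * y + y * y) (y * y)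
  have h7 := N1_add_le (y * y) (y * y)
  have h8 := N1_sub_le (y * y * (y + y + y + y)) (y * y + y * y + y * y)
  have h9 : N1 (y + y + y + y) ≤ 4 * N1 y := by linarith
  have h10 : N1 (y * y) * N1 (y + y + y + y) ≤ (N1 y * N1 y) * (4 * N1 y) :=
    mul_le_mul h1 h9 (N1_nonneg _) (by positivity)
  nlinarith

theorem Nw_P_le {w : G → ℝ} (hw : ∀ g, 0 ≤ w g) (hadd : ∀ g h, w (g * h) ≤ w g + w h)
    (x : MonoidAlgebra R G) : Nw w (P x) ≤ 6 * N1 x * (1 + N1 x) * Nw w x := by
  unfold P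
  have h1 := Nw_mul_le hw hadd x x
  have h2 := Nw_mul_le hw hadd (x * x) x
  have h3 := N1_mul_le x x
  have h4 := Nw_add_le hw (x * x * x) (x * x * x)
  have h5 := Nw_add_le hw (x * x + x * x) (x * x)
  have h6 := Nw_add_le hw (x * x) (x * x)
  have h7 := Nw_sub_le hw (x * x + x * x + x * x) (x * x * x + x * x * x)
  have h8 := N1_nonneg x
  have h9 := Nw_nonneg hw x
  have h10 := Nw_nonneg hw (x * x)
  have h11 : N1 (x * x) * Nw w x ≤ (N1 x * N1 x) * Nw w x := mul_le_mul_of_nonneg_right h3 h9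
  have h12 : Nw w (x * x) * N1 x ≤ (Nw w x * N1 x + N1 x * Nw w x) * N1 x :=
    mul_le_mul_of_nonneg_right h1 h8
  nlinarith

theorem Psi_one_P {t : R →+ ℂ} (htc : ∀ a b, t (a * b) = t (b * a)) {ψ : G → G → ℝ}
    (hψ : ∀ k g h, ψ k (g * h) = ψ (h * k) g + ψ (k * g) h) (x : MonoidAlgebra R G) :
    Psi t ψ 1 (P x) = - 6 * Psi t ψ (x * x - x) x := by
  have e1 := Psi_mul htc hψ 1 x x
  have e2 := Psi_mul htc hψ 1 (x * x) x
  have e3 := Psi_mul htc hψ x x x
  simp only [mul_one, one_mul] at e1 e2 e3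
  unfold P
  simp only [map_add, map_sub, AddMonoidHom.sub_apply, e1, e2, e3]
  ring

end

end Vale.Agent.P184
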