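import Mathlib
import Vale.Agent.P184.FS

open Filter Topology MonoidAlgebra

namespace Vale.Agent.P184

noncomputable section

variable {G : Type*} {R : Type*} [NormedRing R] [Group G]

/-- smallness threshold -/
def eps (B : ℝ) : ℝ := 1 / (84 * (B + 1) * (B + 2))

theorem eps_pos {B : ℝ} (hB : 0 ≤ B) : 0 < eps B := by unfold eps; positivity

theorem eps_mul {B : ℝ} (hB : 0 ≤ B) : 84 * (B + 1) * (B + 2) * eps B = 1 := by
  unfold eps; field_simp

theorem iter_bounds {B : ℝ} (hB : 0 ≤ B) {x : MonoidAlgebra R G} (hx : N1 x ≤ B)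
    (hy : N1 (x * x - x) ≤ eps B) (n : ℕ) :
    N1 (P^[n] x * P^[n] x - P^[n] x) ≤ N1 (x * x - x) * (1 / 2) ^ n ∧
    N1 (P^[n] x) ≤ B + (2 * B + 3) * (2 * N1 (x * x - x)) * (1 - (1 / 2) ^ n) := by
  have he := eps_mul hB
  have hep := eps_pos hB
  have hy0 : 0 ≤ N1 (x * x - x) := N1_nonneg _
  have hsmall : 168 * eps B ≤ 1 := by nlinarith [mul_nonneg hB hep.le, mul_nonneg (mul_nonneg hB hB) hep.le]
  have hsmall2 : 2 * (2 * B + 3) * eps B ≤ 1 := by
    nlinarith [mul_nonneg hB hep.le, mul_nonneg (mul_nonneg hB hB) hep.le]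
  induction n with
  | zero => simp [hx]
  | succ n ih =>
    obtain ⟨ih1, ih2⟩ := ih
    rw [Function.iterate_succ_apply']
    set z := P^[n] x with hz
    have hp : (0 : ℝ) < (1 / 2 : ℝ) ^ n := by positivity
    have hp1 : (1 / 2 : ℝ) ^ n ≤ 1 := pow_le_one₀ (by norm_num) (by norm_num)
    have hz0 : 0 ≤ N1 (z * z - z) := N1_nonneg _
    have hz1 : N1 (z * z - z) ≤ eps B := by nlinarith
    have hb0 : 0 ≤ N1 z := N1_nonneg _
    have hb : N1 z ≤ B + 1 := by
      have : (2 * B + 3) * (2 * N1 (x * x - x)) * (1 - (1 / 2) ^ n) ≤ 1 := by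
        have h1 : (2 * B + 3) * (2 * N1 (x * x - x)) ≤ 1 := by nlinarith
        have h2 : 0 ≤ (2 * B + 3) * (2 * N1 (x * x - x)) := by positivity
        nlinarith
      linarith
    constructor
    · have h1 := N1_P_idem_le z
      have h2 : N1 (z * z - z) ^ 2 * (4 * N1 (z * z - z) + 3) ≤ N1 (z * z - z) * (1 / 2) := by
        have h3 : N1 (z * z - z) * (4 * N1 (z * z - z) + 3) ≤ 1 / 2 := by nlinarith
        nlinarith
      rw [pow_succ]
      nlinarith
    · have h1 := N1_P_le z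
      have h2 : N1 (z * z - z) * (2 * N1 z + 1) ≤ N1 (x * x - x) * (1 / 2) ^ n * (2 * B + 3) := by
        apply mul_le_mul ih1 (by linarith) (by positivity) (by positivity)
      rw [pow_succ]
      nlinarith

theorem iter_small {B : ℝ} (hB : 0 ≤ B) {x : MonoidAlgebra R G} (hx : N1 x ≤ B)
    (hy : N1 (x * x - x) ≤ eps B) (n : ℕ) :
    N1 (P^[n] x * P^[n] x - P^[n] x) ≤ eps B ∧ N1 (P^[n] x) ≤ B + 1 := by
  obtain ⟨h1, h2⟩ := iter_bounds hB hx hy n
  have he := eps_mul hB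
  have hep := eps_pos hB
  have hy0 : 0 ≤ N1 (x * x - x) := N1_nonneg _
  have hp : (0 : ℝ) < (1 / 2 : ℝ) ^ n := by positivity
  have hp1 : (1 / 2 : ℝ) ^ n ≤ 1 := pow_le_one₀ (by norm_num) (by norm_num)
  have hsmall2 : 2 * (2 * B + 3) * eps B ≤ 1 := by
    nlinarith [mul_nonneg hB hep.le, mul_nonneg (mul_nonneg hB hB) hep.le]
  refine ⟨by nlinarith, ?_⟩
  have h3 : (2 * B + 3) * (2 * N1 (x * x - x)) ≤ 1 := by nlinarith
  have h4 : 0 ≤ (2 * B + 3) * (2 * N1 (x * x - x)) := by positivity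
  nlinarith

/-- an additive functional decays along the iteration -/
def Decays (T : MonoidAlgebra R G →+ ℂ) : Prop :=
  ∀ (x : MonoidAlgebra R G) (B : ℝ), 0 ≤ B → N1 x ≤ B → N1 (x * x - x) ≤ eps B →
    Tendsto (fun n => T (P^[n] x)) atTop (𝓝 0)

theorem Decays.finset_sum {J : Type*} (s : Finset J) (T : J → (MonoidAlgebra R G →+ ℂ))
    (h : ∀ j ∈ s, Decays (T j)) : Decays (∑ j ∈ s, T j) := by
  intro x B hB hx hy
  have := tendsto_finsetSum s (fun j hj => h j hj x B hB hx hy)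
  simpa using this

theorem Decays.norm_le {T : MonoidAlgebra R G →+ ℂ} (hT : Decays T) {K : ℝ} (hK : 0 ≤ K)
    (hb : ∀ x, ‖T x‖ ≤ K * N1 x) {B : ℝ} (hB : 0 ≤ B) {x : MonoidAlgebra R G} (hx : N1 x ≤ B)
    (hy : N1 (x * x - x) ≤ eps B) :
    ‖T x‖ ≤ K * (2 * (2 * B + 3)) * N1 (x * x - x) := by
  have hy0 : 0 ≤ N1 (x * x - x) := N1_nonneg _
  have key : ∀ n, ‖T x‖ ≤ K * (2 * (2 * B + 3)) * N1 (x * x - x) * (1 - (1 / 2) ^ n)
      + ‖T (P^[n] x)‖ := by
    intro n
    induction n with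
    | zero => simp
    | succ n ih =>
      obtain ⟨h1, h2⟩ := iter_bounds hB hx hy n
      obtain ⟨h3, h4⟩ := iter_small hB hx hy n
      rw [Function.iterate_succ_apply']
      set z := P^[n] x with hz
      have h5 : ‖T z‖ ≤ ‖T (P z)‖ + ‖T (P z - z)‖ := by
        rw [map_sub]
        have := norm_sub_le (T (P z)) (T (P z) - T z)
        simpa using this
      have h6 := hb (P z - z)
      have h7 := N1_P_sub_le z
      have hz0 : 0 ≤ N1 (z * z - z) := N1_nonneg _
      have hb0 : 0 ≤ N1 z := N1_nonneg _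
      have h8 : N1 (z * z - z) * (2 * N1 z + 1) ≤ N1 (x * x - x) * (1 / 2) ^ n * (2 * B + 3) := by
        apply mul_le_mul h1 (by linarith) (by positivity) (by positivity)
      have h9 : ‖T (P z - z)‖ ≤ K * (N1 (x * x - x) * (1 / 2) ^ n * (2 * B + 3)) :=
        h6.trans (mul_le_mul_of_nonneg_left (h7.trans h8) hK)
      rw [pow_succ]
      nlinarith
  have hlim : Tendsto (fun n => K * (2 * (2 * B + 3)) * N1 (x * x - x) * (1 - (1 / 2) ^ n)
      + ‖T (P^[n] x)‖) atTop (𝓝 (K * (2 * (2 * B + 3)) * N1 (x * x - x) * (1 - 0) + ‖(0 : ℂ)‖)) := by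
    refine Tendsto.add (Tendsto.mul tendsto_const_nhds (Tendsto.sub tendsto_const_nhds ?_)) ?_
    · exact tendsto_pow_atTop_nhds_zero_of_lt_one (by norm_num) (by norm_num)
    · exact (hT x B hB hx hy).norm
  have := ge_of_tendsto' hlim key
  simpa using this

theorem decays_of_psi {t : R →+ ℂ} {K : ℝ} (hK0 : 0 ≤ K) (ht : ∀ a, ‖t a‖ ≤ K * ‖a‖)
    (htc : ∀ a b, t (a * b) = t (b * a)) {ψ : G → G → ℝ}
    (hψ : ∀ k g h, ψ k (g * h) = ψ (h * k) g + ψ (k * g) h)
    {w : G → ℝ} (hb : ∀ k g, |ψ k g| ≤ w g) (hadd : ∀ g h, w (g * h) ≤ w g + w h)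
    {c : ℝ} (hc : c ≠ 0) {S : Set G} (h1 : ∀ g ∈ S, ψ 1 g = c) (h2 : ∀ g, g ∉ S → ψ 1 g = 0) :
    Decays (TS t S) := by
  intro x B hB hx hy
  have hw : ∀ g, 0 ≤ w g := fun g => (abs_nonneg _).trans (hb 1 g)
  have he := eps_mul hB
  have hep := eps_pos hB
  -- relation between Psi and TS
  have hrel : ∀ z : MonoidAlgebra R G, Psi t ψ 1 z = (c : ℂ) * TS t S z := by
    classical
    intro z
    induction z using MonoidAlgebra.induction_linear with
    | zero => simp
    | add a b iha ihb => rw [map_add, map_add, iha, ihb, mul_add]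
    | single g b =>
      rw [MonoidAlgebra.one_def, Psi_single]
      unfold TS
      rw [alift_single]
      by_cases hg : g ∈ S
      · simp [hg, h1 g hg]
      · simp [hg, h2 g hg]
  set a : ℕ → ℝ := fun n => N1 (P^[n] x * P^[n] x - P^[n] x) with ha
  set d : ℕ → ℝ := fun n => Nw w (P^[n] x) with hd
  have ha0 : ∀ n, 0 ≤ a n := fun n => N1_nonneg _
  have hd0 : ∀ n, 0 ≤ d n := fun n => Nw_nonneg hw _
  have hstep : ∀ n, a (n + 1) * d (n + 1) ≤ (1 / 2) * (a n * d n) := by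
    intro n
    obtain ⟨h3, h4⟩ := iter_small hB hx hy n
    have e1 : a (n + 1) ≤ 7 * (a n) ^ 2 := by
      simp only [ha]
      rw [Function.iterate_succ_apply']
      have := N1_P_idem_le (P^[n] x)
      have hz0 : 0 ≤ N1 (P^[n] x * P^[n] x - P^[n] x) := N1_nonneg _
      have hsmall : eps B ≤ 1 := by
        nlinarith [mul_nonneg hB hep.le, mul_nonneg (mul_nonneg hB hB) hep.le]
      nlinarith [sq_nonneg (N1 (P^[n] x * P^[n] x - P^[n] x))]
    have e2 : d (n + 1) ≤ (6 * (B + 1) * (B + 2)) * d n := by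
      simp only [hd]
      rw [Function.iterate_succ_apply']
      have := Nw_P_le hw hadd (P^[n] x)
      have hb0 : 0 ≤ N1 (P^[n] x) := N1_nonneg _
      have h5 : 6 * N1 (P^[n] x) * (1 + N1 (P^[n] x)) ≤ 6 * (B + 1) * (B + 2) := by nlinarith
      exact this.trans (mul_le_mul_of_nonneg_right h5 (hd0 n))
    have e3 : a n ≤ eps B := h3
    calc a (n + 1) * d (n + 1) ≤ (7 * (a n) ^ 2) * ((6 * (B + 1) * (B + 2)) * d n) :=
          mul_le_mul e1 e2 (hd0 _) (by positivity)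
      _ = (42 * (B + 1) * (B + 2) * a n) * (a n * d n) := by ring
      _ ≤ (1 / 2) * (a n * d n) := by
          refine mul_le_mul_of_nonneg_right ?_ (mul_nonneg (ha0 n) (hd0 n))
          have : 42 * (B + 1) * (B + 2) * a n ≤ 42 * (B + 1) * (B + 2) * eps B :=
            mul_le_mul_of_nonneg_left e3 (by positivity)
          linarith
  have hgeo : ∀ n, a n * d n ≤ (a 0 * d 0) * (1 / 2) ^ n := by
    intro n
    induction n with
    | zero => simp
    | succ n ih =>
      have := hstep n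
      rw [pow_succ]
      linarith
  have hbound : ∀ n, ‖TS t S (P^[n + 1] x)‖ ≤ (6 * K / |c|) * ((a 0 * d 0) * (1 / 2) ^ n) := by
    intro n
    rw [Function.iterate_succ_apply']
    have e1 := hrel (P (P^[n] x))
    rw [Psi_one_P htc hψ] at e1
    have e2 : TS t S (P (P^[n] x)) = - 6 / (c : ℂ) *
        Psi t ψ (P^[n] x * P^[n] x - P^[n] x) (P^[n] x) := by
      have hc' : (c : ℂ) ≠ 0 := by exact_mod_cast hc
      field_simp
      linear_combination -e1
    rw [e2, norm_mul]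
    have e3 := norm_Psi_le hK0 ht hb (P^[n] x * P^[n] x - P^[n] x) (P^[n] x)
    have e4 : ‖(-6 / (c : ℂ))‖ = 6 / |c| := by
      rw [norm_div, Complex.norm_real, Real.norm_eq_abs]; simp
    rw [e4]
    have hc0 : 0 < |c| := abs_pos.mpr hc
    calc 6 / |c| * ‖Psi t ψ (P^[n] x * P^[n] x - P^[n] x) (P^[n] x)‖
        ≤ 6 / |c| * (K * (a n * d n)) := mul_le_mul_of_nonneg_left e3 (by positivity)
      _ ≤ 6 / |c| * (K * ((a 0 * d 0) * (1 / 2) ^ n)) := by
          refine mul_le_mul_of_nonneg_left (mul_le_mul_of_nonneg_left (hgeo n) hK0) (by positivity)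
      _ = (6 * K / |c|) * ((a 0 * d 0) * (1 / 2) ^ n) := by ring
  rw [← tendsto_add_atTop_iff_nat 1]
  rw [tendsto_zero_iff_norm_tendsto_zero]
  refine squeeze_zero (fun n => norm_nonneg _) hbound ?_
  have : Tendsto (fun n : ℕ => (6 * K / |c|) * ((a 0 * d 0) * (1 / 2) ^ n)) atTop
      (𝓝 ((6 * K / |c|) * ((a 0 * d 0) * 0))) :=
    Tendsto.mul tendsto_const_nhds (Tendsto.mul tendsto_const_nhds
      (tendsto_pow_atTop_nhds_zero_of_lt_one (by norm_num) (by norm_num)))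
  simpa using this

end

end Vale.Agent.P184
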