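import Mathlib
import Vale.Agent.P184.Decay

open Filter Topology MonoidAlgebra

namespace Vale.Agent.P184

noncomputable section

variable {G : Type*} {R : Type*} [NormedRing R] [Group G]

theorem P_map {H : Type*} [Group H] (f : H →* G) (x : MonoidAlgebra R H) :
    P (MonoidAlgebra.mapDomainRingHom R f x) = MonoidAlgebra.mapDomainRingHom R f (P x) := by
  unfold P
  simp only [map_sub, map_add, map_mul]

theorem N1_map {H : Type*} [Group H] (f : H →* G) (hf : Function.Injective f)
    (x : MonoidAlgebra R H) :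
    N1 (MonoidAlgebra.mapDomainRingHom R f x) = N1 x := by
  unfold N1 Nw
  have : (MonoidAlgebra.mapDomainRingHom R f x).coeff = Finsupp.mapDomain f x.coeff := rfl
  rw [this, Finsupp.sum_mapDomain_index_inj hf]

theorem TS_map {H : Type*} [Group H] (f : H →* G) (t : R →+ ℂ) (S : Set G)
    (x : MonoidAlgebra R H) :
    TS t S (MonoidAlgebra.mapDomainRingHom R f x) = TS t (f ⁻¹' S) x := by
  classical
  induction x using MonoidAlgebra.induction_linear with
  | zero => simp
  | add a b iha ihb => rw [map_add, map_add, iha, ihb, map_add]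
  | single g b =>
    have : (MonoidAlgebra.mapDomainRingHom R f (single g b)) = single (f g) b := by
      simp
    rw [this]
    unfold TS
    rw [alift_single, alift_single]
    simp [Set.mem_preimage]

/-- local estimate -/
theorem local_estimate {t : R →+ ℂ} {K : ℝ} (hK : 0 ≤ K) (ht : ∀ a, ‖t a‖ ≤ K * ‖a‖) (g₀ : G)
    (hdec : ∀ (H : Subgroup G), H.FG → ∀ h : H, IsConj g₀ (h : G) →
      Decays (TS t {k : H | IsConj h k}))
    {B : ℝ} (hB : 0 ≤ B) {x : MonoidAlgebra R G} (hx : N1 x ≤ B)
    (hy : N1 (x * x - x) ≤ eps B) :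
    ‖TS t {g | IsConj g₀ g} x‖ ≤ K * (2 * (2 * B + 3)) * N1 (x * x - x) := by
  classical
  set H : Subgroup G := Subgroup.closure (x.coeff.support : Set G) with hH
  have hFG : H.FG := ⟨x.coeff.support, rfl⟩
  have hinj : Function.Injective (H.subtype) := Subtype.coe_injective
  set x' : MonoidAlgebra R H := MonoidAlgebra.comapDomain (H.subtype) hinj x with hx'
  have hxx' : MonoidAlgebra.mapDomainRingHom R H.subtype x' = x := by
    have : MonoidAlgebra.mapDomain (H.subtype) x' = x := by
      refine MonoidAlgebra.mapDomain_comapDomain ?_ hinj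
      intro g hg
      exact ⟨⟨g, Subgroup.subset_closure hg⟩, rfl⟩
    exact this
  rw [← hxx', TS_map]
  rw [← hxx', N1_map _ hinj] at hx
  rw [← hxx', ← map_mul, ← map_sub, N1_map _ hinj] at hy
  rw [← map_mul, ← map_sub, N1_map _ hinj]
  -- the finite set of classes
  set J : Finset (ConjClasses H) :=
    ((x'.coeff.support.filter (fun h : H => IsConj g₀ (h : G)) : Finset H)).image ConjClasses.mk with hJ
  have hT : (TS t {h : H | ConjClasses.mk h ∈ J} : MonoidAlgebra R H →+ ℂ) =
      ∑ c ∈ J, TS t {h : H | ConjClasses.mk h = c} := by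
    refine MonoidAlgebra.addMonoidHom_ext fun h r => ?_
    rw [AddMonoidHom.finsetSum_apply]
    unfold TS
    simp only [alift_single, Set.mem_ofPred_eq]
    by_cases hh : ConjClasses.mk h ∈ J
    · rw [if_pos hh]
      rw [Finset.sum_eq_single (ConjClasses.mk h)]
      · simp
      · intro b _ hb
        rw [if_neg (fun h' => hb h'.symm)]; rfl
      · intro h'; exact absurd hh h'
    · rw [if_neg hh]
      symm
      refine Finset.sum_eq_zero fun c hc => ?_
      rw [if_neg]
      · rfl
      · intro h'; exact hh (h' ▸ hc)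
  have hdecJ : Decays (TS t {h : H | ConjClasses.mk h ∈ J} : MonoidAlgebra R H →+ ℂ) := by
    rw [hT]
    refine Decays.finset_sum J _ fun c hc => ?_
    rw [hJ, Finset.mem_image] at hc
    obtain ⟨h, hh, rfl⟩ := hc
    rw [Finset.mem_filter] at hh
    have := hdec H hFG h hh.2
    have hset : {k : H | ConjClasses.mk k = ConjClasses.mk h} = {k : H | IsConj h k} := by
      ext k
      simp only [Set.mem_ofPred_eq, ConjClasses.mk_eq_mk_iff_isConj]
      exact ⟨fun h => h.symm, fun h => h.symm⟩
    rw [hset]
    exact this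
  have heq : TS t (H.subtype ⁻¹' {g | IsConj g₀ g}) x' =
      TS t {h : H | ConjClasses.mk h ∈ J} x' := by
    unfold TS
    rw [alift_apply, alift_apply]
    unfold Finsupp.sum
    refine Finset.sum_congr rfl fun h hh => ?_
    have : (h ∈ (H.subtype ⁻¹' {g | IsConj g₀ g})) ↔ (h ∈ {h : H | ConjClasses.mk h ∈ J}) := by
      simp only [Set.mem_preimage, Set.mem_ofPred_eq, Subgroup.subtype_apply, hJ, Finset.mem_image,
        Finset.mem_filter]
      constructor
      · intro h1
        exact ⟨h, ⟨hh, h1⟩, rfl⟩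
      · rintro ⟨k, ⟨_, hk⟩, hk2⟩
        rw [ConjClasses.mk_eq_mk_iff_isConj] at hk2
        have h3 : IsConj (k : G) (h : G) := by
          exact MonoidHom.map_isConj H.subtype hk2
        exact hk.trans h3
    beta_reduce
    by_cases h1 : (h ∈ (H.subtype ⁻¹' {g | IsConj g₀ g}))
    · rw [if_pos h1, if_pos (this.mp h1)]
    · rw [if_neg h1, if_neg (fun h2 => h1 (this.mpr h2))]
  rw [heq]
  exact hdecJ.norm_le hK (fun y => norm_TS_le ht _ y) hB hx hy

end

end Vale.Agent.P184
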