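import Mathlib
import Vale.Agent.P184.Local

open Filter Topology MonoidAlgebra

namespace Vale.Agent.P184

noncomputable section

variable {G : Type*} [Group G]

/-- shear equivalence -/
def shear (G : Type*) [Group G] : G × G ≃ G × G where
  toFun := fun p => (p.2, p.2⁻¹ * p.1)
  invFun := fun p => (p.1 * p.2, p.1)
  left_inv := fun p => by simp
  right_inv := fun p => by simp

open Classical in
def phiS (f g : G → ℝ) (S : Finset G) (p : G × G) : ℝ :=
  if p.1 ∈ S ∧ p.2 ∈ S then 0 else f p.1 * g p.2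

open Classical in
def psiS (f g : G → ℝ) (S : Finset G) (p : G × G) : ℝ :=
  if p.1 ∈ S ∧ p.2 ∈ S then f p.1 * g p.2 else 0

theorem tail_bound (f g : G → ℝ) (hf : ∀ x, 0 ≤ f x) (hg : ∀ x, 0 ≤ g x) (sf : Summable f)
    (sg : Summable g) (S W : Finset G) :
    ∑ x ∈ W, (∑' h, phiS f g S (h, h⁻¹ * x)) ≤
      (∑' h, f h) * (∑' h, g h) - (∑ h ∈ S, f h) * (∑ h ∈ S, g h) := by
  classical
  have sfg : Summable fun p : G × G => f p.1 * g p.2 := sf.mul_of_nonneg sg hf hg
  have hΦ0 : ∀ p, 0 ≤ phiS f g S p := by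
    intro p
    simp only [phiS]
    split_ifs
    · exact le_rfl
    · exact mul_nonneg (hf _) (hg _)
  have hle : ∀ p, phiS f g S p ≤ f p.1 * g p.2 := by
    intro p
    simp only [phiS]
    split_ifs
    · exact mul_nonneg (hf _) (hg _)
    · exact le_rfl
  have hΨ0 : ∀ p, 0 ≤ psiS f g S p := by
    intro p
    simp only [psiS]
    split_ifs
    · exact mul_nonneg (hf _) (hg _)
    · exact le_rfl
  have hle' : ∀ p, psiS f g S p ≤ f p.1 * g p.2 := by
    intro p
    simp only [psiS]
    split_ifs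
    · exact le_rfl
    · exact mul_nonneg (hf _) (hg _)
  have sΦ : Summable (phiS f g S) := Summable.of_nonneg_of_le hΦ0 hle sfg
  have sΨ : Summable (psiS f g S) := Summable.of_nonneg_of_le hΨ0 hle' sfg
  have tΨ : ∑' p, psiS f g S p = (∑ h ∈ S, f h) * (∑ h ∈ S, g h) := by
    rw [tsum_eq_sum (s := S ×ˢ S)]
    · rw [Finset.sum_product, Finset.sum_mul_sum]
      refine Finset.sum_congr rfl fun a ha => Finset.sum_congr rfl fun b hb => ?_
      simp [psiS, ha, hb]
    · intro p hp
      simp only [psiS]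
      rw [if_neg]
      rwa [Finset.mem_product] at hp
  have tΦ : ∑' p, phiS f g S p = (∑' h, f h) * (∑' h, g h) - (∑ h ∈ S, f h) * (∑ h ∈ S, g h) := by
    have h1 : ∀ p, phiS f g S p = f p.1 * g p.2 - psiS f g S p := by
      intro p
      simp only [phiS, psiS]
      split_ifs <;> ring
    rw [tsum_congr h1, Summable.tsum_sub sfg sΨ, tΨ]
    congr 1
    rw [sf.tsum_mul_tsum sg sfg]
  rw [← tΦ]
  have sE : Summable (fun p : G × G => phiS f g S (shear G p)) :=
    sΦ.comp_injective (shear G).injective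
  have h4 : ∑' p, phiS f g S p = ∑' p, phiS f g S (shear G p) :=
    (Equiv.tsum_eq (shear G) (phiS f g S)).symm
  have h5 : ∑' p, phiS f g S (shear G p) = ∑' x, ∑' h, phiS f g S (shear G (x, h)) :=
    Summable.tsum_prod sE
  have h2 : Summable fun x => ∑' h, phiS f g S (shear G (x, h)) := sE.prod
  have h3 := h2.sum_le_tsum W (fun x _ => tsum_nonneg fun h => hΦ0 _)
  rw [h4, h5]
  exact h3

theorem summable_conv {f g : G → ℝ} (hf : ∀ x, 0 ≤ f x) (hg : ∀ x, 0 ≤ g x) (sf : Summable f)
    (sg : Summable g) (x : G) : Summable fun h => f h * g (h⁻¹ * x) := by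
  have sfg : Summable fun p : G × G => f p.1 * g p.2 := sf.mul_of_nonneg sg hf hg
  have hinj : Function.Injective (fun h : G => (h, h⁻¹ * x)) := by
    intro a b hab
    exact (Prod.ext_iff.mp hab).1
  exact sfg.comp_injective hinj

end

end Vale.Agent.P184
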