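import Mathlib
import Vale.Agent.P184.Tail

open Filter Topology MonoidAlgebra

namespace Vale.Agent.P184

noncomputable section

variable {G : Type*} [Group G] {ι : Type*} [Fintype ι] [DecidableEq ι]

attribute [local instance] Matrix.linftyOpNormedRing

omit [DecidableEq ι] in
theorem norm_matrix_le [DecidableEq ι] (m : Matrix ι ι ℂ) : ‖m‖ ≤ ∑ i, ∑ j, ‖m i j‖ := by
  rw [Matrix.linfty_opNorm_def]
  have h1 : ∀ i ∈ (Finset.univ : Finset ι), (∑ j, ‖m i j‖₊) ≤ ∑ i, ∑ j, ‖m i j‖₊ := by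
    intro i _
    exact Finset.single_le_sum (f := fun i => ∑ j, ‖m i j‖₊) (fun _ _ => zero_le) (Finset.mem_univ i)
  have h2 := Finset.sup_le h1
  have h3 : ((Finset.univ.sup fun i => ∑ j, ‖m i j‖₊ : NNReal) : ℝ) ≤
      ((∑ i, ∑ j, ‖m i j‖₊ : NNReal) : ℝ) := by exact_mod_cast h2
  simpa using h3

theorem norm_entry_le (m : Matrix ι ι ℂ) (i j : ι) : ‖m i j‖ ≤ ‖m‖ := by
  rw [Matrix.linfty_opNorm_def]
  have h1 : ‖m i j‖₊ ≤ Finset.univ.sup fun i => ∑ j, ‖m i j‖₊ := by
    refine le_trans ?_ (Finset.le_sup (f := fun i => ∑ j, ‖m i j‖₊) (Finset.mem_univ i))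
    exact Finset.single_le_sum (f := fun j => ‖m i j‖₊) (fun _ _ => zero_le) (Finset.mem_univ j)
  exact_mod_cast h1

theorem norm_trace_le (m : Matrix ι ι ℂ) :
    ‖Matrix.traceAddMonoidHom ι ℂ m‖ ≤ (Fintype.card ι : ℝ) * ‖m‖ := by
  have : Matrix.traceAddMonoidHom ι ℂ m = ∑ i, m i i := rfl
  rw [this]
  refine (norm_sum_le _ _).trans ?_
  refine (Finset.sum_le_sum fun i _ => norm_entry_le m i i).trans ?_
  simp

/-- truncation -/
def xS (e : ι → ι → G → ℂ) (S : Finset G) : MonoidAlgebra (Matrix ι ι ℂ) G :=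
  ∑ g ∈ S, single g (Matrix.of fun i j => e i j g)

open Classical in
theorem coeff_xS (e : ι → ι → G → ℂ) (S : Finset G) (g : G) :
    (xS e S).coeff g = if g ∈ S then (Matrix.of fun i j => e i j g) else 0 := by
  unfold xS
  rw [MonoidAlgebra.coeff_sum, Finsupp.finsetSum_apply]
  simp only [MonoidAlgebra.coeff_single, Finsupp.single_apply]
  rw [Finset.sum_ite_eq' S g]

theorem support_xS (e : ι → ι → G → ℂ) (S : Finset G) : (xS e S).coeff.support ⊆ S := by
  classical
  intro g hg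
  rw [Finsupp.mem_support_iff, coeff_xS] at hg
  by_contra h
  simp [h] at hg

open Classical in
theorem coeff_mul_entry (e : ι → ι → G → ℂ) (S : Finset G) (g : G) (i j : ι) :
    ((xS e S * xS e S).coeff g) i j =
      ∑ k, ∑ h ∈ S, if h⁻¹ * g ∈ S then e i k h * e k j (h⁻¹ * g) else 0 := by
  rw [MonoidAlgebra.coeff_mul_apply_left]
  rw [Finsupp.sum_of_support_subset _ (support_xS e S) _ (by intro h _; simp)]
  rw [Matrix.sum_apply, Finset.sum_comm]
  refine Finset.sum_congr rfl fun h hh => ?_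
  rw [coeff_xS, coeff_xS, if_pos hh, Matrix.mul_apply]
  refine Finset.sum_congr rfl fun k _ => ?_
  split_ifs with h1
  · simp
  · simp

theorem N1_xS (e : ι → ι → G → ℂ) (S : Finset G) :
    N1 (xS e S) ≤ ∑ g ∈ S, ∑ i, ∑ j, ‖e i j g‖ := by
  classical
  unfold N1
  rw [Nw_eq_of_subset _ _ (support_xS e S)]
  refine Finset.sum_le_sum fun g hg => ?_
  rw [one_mul, coeff_xS, if_pos hg]
  exact norm_matrix_le _

/-- error quantity -/
def Q (e : ι → ι → G → ℂ) (S : Finset G) : ℝ :=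
  ∑ i, ∑ j, ((∑' g, ‖e i j g‖) - ∑ g ∈ S, ‖e i j g‖) +
  ∑ i, ∑ j, ∑ k, ((∑' g, ‖e i k g‖) * (∑' g, ‖e k j g‖) -
    (∑ g ∈ S, ‖e i k g‖) * (∑ g ∈ S, ‖e k j g‖))

theorem Q_tendsto (e : ι → ι → G → ℂ) (hs : ∀ i j, Summable fun g => ‖e i j g‖) :
    Tendsto (Q e) atTop (𝓝 0) := by
  have h0 : ∀ i j, Tendsto (fun S : Finset G => ∑ g ∈ S, ‖e i j g‖) atTop
      (𝓝 (∑' g, ‖e i j g‖)) := fun i j => (hs i j).hasSum
  have h1 : Tendsto (Q e) atTop (𝓝 (∑ i, ∑ j, ((∑' g, ‖e i j g‖) - (∑' g, ‖e i j g‖)) +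
      ∑ i, ∑ j, ∑ k, ((∑' g, ‖e i k g‖) * (∑' g, ‖e k j g‖) -
      (∑' g, ‖e i k g‖) * (∑' g, ‖e k j g‖)))) := by
    unfold Q
    refine Tendsto.add ?_ ?_
    · refine tendsto_finsetSum _ fun i _ => tendsto_finsetSum _ fun j _ => ?_
      exact Tendsto.sub tendsto_const_nhds (h0 i j)
    · refine tendsto_finsetSum _ fun i _ => tendsto_finsetSum _ fun j _ =>
        tendsto_finsetSum _ fun k _ => ?_
      exact Tendsto.sub tendsto_const_nhds (Tendsto.mul (h0 i k) (h0 k j))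
  simpa using h1

theorem N1_err (e : ι → ι → G → ℂ) (hs : ∀ i j, Summable fun g => ‖e i j g‖)
    (he : ∀ i j g, e i j g = ∑ k, ∑' h, e i k h * e k j (h⁻¹ * g)) (S : Finset G) :
    N1 (xS e S * xS e S - xS e S) ≤ Q e S := by
  classical
  set z := xS e S * xS e S - xS e S with hz
  set W := z.coeff.support with hW
  have hent : ∀ g i j, ‖z.coeff g i j‖ ≤ (if g ∈ S then 0 else ‖e i j g‖) +
      ∑ k, ∑' h, phiS (fun g => ‖e i k g‖) (fun g => ‖e k j g‖) S (h, h⁻¹ * g) := by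
    intro g i j
    have hsum : ∀ k, Summable fun h => e i k h * e k j (h⁻¹ * g) := by
      intro k
      refine Summable.of_norm ?_
      have := summable_conv (fun x => norm_nonneg (e i k x)) (fun x => norm_nonneg (e k j x))
        (hs i k) (hs k j) g
      simpa [norm_mul] using this
    have hfin : ∀ k, Summable fun h => (if h ∈ S ∧ h⁻¹ * g ∈ S then e i k h * e k j (h⁻¹ * g) else 0) := by
      intro k
      refine summable_of_ne_finset_zero (s := S) fun h hh => ?_
      rw [if_neg]; exact fun h' => hh h'.1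
    have hsum' : ∀ k, Summable fun h => (if h ∈ S ∧ h⁻¹ * g ∈ S then 0 else e i k h * e k j (h⁻¹ * g)) := by
      intro k
      refine ((hsum k).sub (hfin k)).congr fun h => ?_
      split_ifs <;> simp
    have e1 : ∀ k, ∑' h, e i k h * e k j (h⁻¹ * g) =
        (∑ h ∈ S, if h⁻¹ * g ∈ S then e i k h * e k j (h⁻¹ * g) else 0) +
        ∑' h, (if h ∈ S ∧ h⁻¹ * g ∈ S then 0 else e i k h * e k j (h⁻¹ * g)) := by
      intro k
      have e2 : (∑ h ∈ S, if h⁻¹ * g ∈ S then e i k h * e k j (h⁻¹ * g) else 0) =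
          ∑' h, (if h ∈ S ∧ h⁻¹ * g ∈ S then e i k h * e k j (h⁻¹ * g) else 0) := by
        rw [tsum_eq_sum (s := S)]
        · refine Finset.sum_congr rfl fun h hh => ?_
          simp [hh]
        · intro h hh
          rw [if_neg]; exact fun h' => hh h'.1
      rw [e2, ← Summable.tsum_add (hfin k) (hsum' k)]
      refine tsum_congr fun h => ?_
      split_ifs <;> simp
    have e3 : z.coeff g i j = (if g ∈ S then 0 else e i j g) -
        ∑ k, ∑' h, (if h ∈ S ∧ h⁻¹ * g ∈ S then 0 else e i k h * e k j (h⁻¹ * g)) := by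
      have e4 : z.coeff g i j = (xS e S * xS e S).coeff g i j - (xS e S).coeff g i j := by
        rw [hz, MonoidAlgebra.coeff_sub, Finsupp.sub_apply, Matrix.sub_apply]
      have e5 : (xS e S).coeff g i j = if g ∈ S then e i j g else 0 := by
        rw [coeff_xS]
        split_ifs <;> simp
      rw [e4, e5, coeff_mul_entry]
      have e6 := he i j g
      simp only [e1, Finset.sum_add_distrib] at e6
      have e7 : (∑ k, ∑ h ∈ S, if h⁻¹ * g ∈ S then e i k h * e k j (h⁻¹ * g) else 0) =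
        e i j g - ∑ k, ∑' h, (if h ∈ S ∧ h⁻¹ * g ∈ S then 0 else e i k h * e k j (h⁻¹ * g)) := by
        rw [eq_sub_iff_add_eq]; exact e6.symm
      rw [e7]
      split_ifs <;> ring
    rw [e3]
    refine (norm_sub_le _ _).trans (add_le_add ?_ ?_)
    · split_ifs <;> simp
    · refine (norm_sum_le _ _).trans (Finset.sum_le_sum fun k _ => ?_)
      have hn : Summable fun h => ‖(if h ∈ S ∧ h⁻¹ * g ∈ S then 0 else e i k h * e k j (h⁻¹ * g))‖ :=
        (hsum' k).norm
      refine (norm_tsum_le_tsum_norm hn).trans (le_of_eq ?_)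
      refine tsum_congr fun h => ?_
      simp only [phiS]
      split_ifs <;> simp
  unfold N1
  rw [Nw_eq_of_subset _ z (s := W) (Finset.Subset.refl _)]
  have step1 : ∑ g ∈ W, 1 * ‖z.coeff g‖ ≤ ∑ g ∈ W, ∑ i, ∑ j, ((if g ∈ S then 0 else ‖e i j g‖) +
      ∑ k, ∑' h, phiS (fun g => ‖e i k g‖) (fun g => ‖e k j g‖) S (h, h⁻¹ * g)) := by
    refine Finset.sum_le_sum fun g _ => ?_
    rw [one_mul]
    exact (norm_matrix_le _).trans (Finset.sum_le_sum fun i _ => Finset.sum_le_sum fun j _ => hent g i j)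
  refine step1.trans ?_
  have step2 : ∑ g ∈ W, ∑ i, ∑ j, ((if g ∈ S then 0 else ‖e i j g‖) +
      ∑ k, ∑' h, phiS (fun g => ‖e i k g‖) (fun g => ‖e k j g‖) S (h, h⁻¹ * g)) =
      ∑ i, ∑ j, (∑ g ∈ W, (if g ∈ S then 0 else ‖e i j g‖)) +
      ∑ i, ∑ j, ∑ k, ∑ g ∈ W, ∑' h, phiS (fun g => ‖e i k g‖) (fun g => ‖e k j g‖) S (h, h⁻¹ * g) := by
    rw [Finset.sum_comm, ← Finset.sum_add_distrib]
    refine Finset.sum_congr rfl fun i _ => ?_
    rw [Finset.sum_comm, ← Finset.sum_add_distrib]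
    refine Finset.sum_congr rfl fun j _ => ?_
    rw [Finset.sum_add_distrib]
    congr 1
    rw [Finset.sum_comm]
  rw [step2]
  unfold Q
  refine add_le_add ?_ ?_
  · refine Finset.sum_le_sum fun i _ => Finset.sum_le_sum fun j _ => ?_
    have h1 : ∑ g ∈ W, (if g ∈ S then 0 else ‖e i j g‖) = ∑ g ∈ W \ S, ‖e i j g‖ := by
      rw [← Finset.sum_filter_not_add_sum_filter W (fun g => g ∈ S)]
      rw [Finset.sum_ite_of_false (by simp), Finset.sum_ite_of_true (by simp)]
      rw [Finset.sum_const_zero, add_zero]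
      congr 1
      ext g; simp
    rw [h1, le_sub_iff_add_le]
    have h2 : ∑ g ∈ W \ S, ‖e i j g‖ + ∑ g ∈ S, ‖e i j g‖ = ∑ g ∈ (W \ S) ∪ S, ‖e i j g‖ := by
      rw [Finset.sum_union Finset.sdiff_disjoint]
    rw [h2]
    exact (hs i j).sum_le_tsum _ (fun g _ => norm_nonneg _)
  · refine Finset.sum_le_sum fun i _ => Finset.sum_le_sum fun j _ => Finset.sum_le_sum fun k _ => ?_
    exact tail_bound _ _ (fun x => norm_nonneg _) (fun x => norm_nonneg _) (hs i k) (hs k j) S W

/-- main passage -/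
theorem trace_zero (g₀ : G)
    (hdec : ∀ (H : Subgroup G), H.FG → ∀ h : H, IsConj g₀ (h : G) →
      Decays (TS (Matrix.traceAddMonoidHom ι ℂ) {k : H | IsConj h k}))
    (e : ι → ι → G → ℂ) (hs : ∀ i j, Summable fun g => ‖e i j g‖)
    (he : ∀ i j g, e i j g = ∑ k, ∑' h, e i k h * e k j (h⁻¹ * g)) :
    ∑ i, ∑' g : {g : G // IsConj g₀ g}, e i i g = 0 := by
  classical
  set t : Matrix ι ι ℂ →+ ℂ := Matrix.traceAddMonoidHom ι ℂ with ht
  set K : ℝ := (Fintype.card ι : ℝ) with hK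
  have hK0 : 0 ≤ K := by positivity
  set B : ℝ := ∑ i, ∑ j, ∑' g, ‖e i j g‖ with hB
  have hB0 : 0 ≤ B := Finset.sum_nonneg fun i _ => Finset.sum_nonneg fun j _ =>
    tsum_nonneg fun g => norm_nonneg _
  have hxB : ∀ S, N1 (xS e S) ≤ B := by
    intro S
    refine (N1_xS e S).trans ?_
    rw [Finset.sum_comm]
    refine Finset.sum_le_sum fun i _ => ?_
    rw [Finset.sum_comm]
    refine Finset.sum_le_sum fun j _ => ?_
    exact (hs i j).sum_le_tsum _ (fun g _ => norm_nonneg _)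
  have hQ := Q_tendsto e hs
  have hev : ∀ᶠ S in atTop, Q e S ≤ eps B := by
    have := hQ.eventually (ge_mem_nhds (eps_pos hB0))
    exact this
  have hlim0 : Tendsto (fun S => TS t {g | IsConj g₀ g} (xS e S)) atTop (𝓝 0) := by
    rw [tendsto_zero_iff_norm_tendsto_zero]
    have hub : ∀ᶠ S in atTop, ‖TS t {g | IsConj g₀ g} (xS e S)‖ ≤ K * (2 * (2 * B + 3)) * Q e S := by
      filter_upwards [hev] with S hS
      have h1 := N1_err e hs he S
      have h2 := local_estimate (t := t) hK0 norm_trace_le g₀ hdec hB0 (hxB S) (h1.trans hS)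
      exact h2.trans (mul_le_mul_of_nonneg_left h1 (by positivity))
    have h3 : Tendsto (fun S => K * (2 * (2 * B + 3)) * Q e S) atTop (𝓝 0) := by
      have := hQ.const_mul (K * (2 * (2 * B + 3)))
      simpa using this
    exact squeeze_zero' (Eventually.of_forall fun S => norm_nonneg _) hub h3
  have hval : ∀ S, TS t {g | IsConj g₀ g} (xS e S) =
      ∑ i, ∑ g ∈ S, (Set.indicator {g | IsConj g₀ g} (e i i) g) := by
    intro S
    rw [Finset.sum_comm]
    unfold xS
    rw [map_sum]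
    refine Finset.sum_congr rfl fun g _ => ?_
    unfold TS
    rw [alift_single]
    by_cases h : IsConj g₀ g
    · have h' : g ∈ {g | IsConj g₀ g} := h
      rw [if_pos h']
      simp only [Set.indicator_of_mem h']
      rfl
    · have h' : g ∉ {g | IsConj g₀ g} := h
      rw [if_neg h']
      simp only [Set.indicator_of_notMem h']
      simp
  have hlim1 : Tendsto (fun S => TS t {g | IsConj g₀ g} (xS e S)) atTop
      (𝓝 (∑ i, ∑' g : {g : G // IsConj g₀ g}, e i i g)) := by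
    simp only [hval]
    refine tendsto_finsetSum _ fun i _ => ?_
    have h1 : Summable (e i i) := Summable.of_norm (hs i i)
    have h2 : Summable (Set.indicator {g | IsConj g₀ g} (e i i)) := h1.indicator _
    have h3 := h2.hasSum
    have h4 : ∑' g, Set.indicator {g | IsConj g₀ g} (e i i) g =
        ∑' g : {g : G // IsConj g₀ g}, e i i g := (tsum_subtype {g | IsConj g₀ g} (e i i)).symm
    rw [h4] at h3
    exact h3
  exact tendsto_nhds_unique hlim1 hlim0

end

end Vale.Agent.P184
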