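import Mathlib

namespace Vale.Agent.P184

noncomputable section

/-- a character of a subgroup `S` dominated by a subadditive function -/
structure SubChar {G : Type*} [Group G] (S : Subgroup G) (χ L : G → ℝ) : Prop where
  hom : ∀ z ∈ S, ∀ w ∈ S, χ (z * w) = χ z + χ w
  sub : ∀ x y, L (x * y) ≤ L x + L y
  dom : ∀ z ∈ S, |χ z| ≤ L z

variable {G : Type*} [Group G]

/-- McShane type extension -/
def Hs (S : Subgroup G) (χ L : G → ℝ) (x : G) : ℝ := ⨅ z : S, (L ((z : G)⁻¹ * x) + χ z)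

namespace SubChar

variable {S : Subgroup G} {χ L : G → ℝ} (D : SubChar S χ L)
include D

theorem chi_one : χ 1 = 0 := by
  have := D.hom 1 S.one_mem 1 S.one_mem
  simp at this
  exact this

theorem chi_inv {z : G} (hz : z ∈ S) : χ z⁻¹ = - χ z := by
  have := D.hom z⁻¹ (S.inv_mem hz) z hz
  rw [inv_mul_cancel, D.chi_one] at this
  linarith

theorem lower (x : G) (z : S) : - L x⁻¹ ≤ L ((z : G)⁻¹ * x) + χ z := by
  have h1 := D.sub ((z : G)⁻¹ * x) x⁻¹
  rw [mul_assoc, mul_inv_cancel, mul_one] at h1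
  have h2 := D.dom (z : G)⁻¹ (S.inv_mem z.2)
  rw [D.chi_inv z.2] at h2
  have h3 := neg_abs_le (-χ z)
  have h4 := le_abs_self (-χ z)
  linarith

theorem bdd (x : G) : BddBelow (Set.range fun z : S => L ((z : G)⁻¹ * x) + χ z) := by
  refine ⟨- L x⁻¹, ?_⟩
  rintro _ ⟨z, rfl⟩
  exact D.lower x z

theorem Hs_left_le {w : G} (hw : w ∈ S) (x : G) : Hs S χ L (w * x) ≤ χ w + Hs S χ L x := by
  rw [← sub_le_iff_le_add']
  refine le_ciInf fun z => ?_
  have h1 := ciInf_le (D.bdd (w * x)) ⟨w * z, S.mul_mem hw z.2⟩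
  have h2 := D.hom w hw z z.2
  have h3 : (w * (z : G))⁻¹ * (w * x) = (z : G)⁻¹ * x := by group
  simp only [h3, h2] at h1
  unfold Hs
  linarith

theorem Hs_left {w : G} (hw : w ∈ S) (x : G) : Hs S χ L (w * x) = χ w + Hs S χ L x := by
  refine le_antisymm (D.Hs_left_le hw x) ?_
  have := D.Hs_left_le (S.inv_mem hw) (w * x)
  rw [inv_mul_cancel_left, D.chi_inv hw] at this
  linarith

theorem Hs_right_le (x s : G) : Hs S χ L (x * s) ≤ Hs S χ L x + L s := by
  rw [← sub_le_iff_le_add]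
  refine le_ciInf fun z => ?_
  have h1 := ciInf_le (D.bdd (x * s)) z
  have h2 := D.sub ((z : G)⁻¹ * x) s
  rw [mul_assoc] at h2
  unfold Hs
  linarith

theorem Hs_lip (x s : G) : |Hs S χ L (x * s) - Hs S χ L x| ≤ max (L s) (L s⁻¹) := by
  have h1 := D.Hs_right_le x s
  have h2 := D.Hs_right_le (x * s) s⁻¹
  rw [mul_inv_cancel_right] at h2
  have h3 := le_max_left (L s) (L s⁻¹)
  have h4 := le_max_right (L s) (L s⁻¹)
  rw [abs_le]
  constructor <;> linarith

theorem len_nonneg (s : G) : 0 ≤ max (L s) (L s⁻¹) :=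
  (abs_nonneg _).trans (D.Hs_lip 1 s)

end SubChar

theorem max_sub {L : G → ℝ} (hL : ∀ x y, L (x * y) ≤ L x + L y) (g h : G) :
    max (L (g * h)) (L (g * h)⁻¹) ≤ max (L g) (L g⁻¹) + max (L h) (L h⁻¹) := by
  refine max_le ?_ ?_
  · exact (hL g h).trans (add_le_add (le_max_left _ _) (le_max_left _ _))
  · rw [mul_inv_rev]
    have := hL h⁻¹ g⁻¹
    have h1 := le_max_right (L g) (L g⁻¹)
    have h2 := le_max_right (L h) (L h⁻¹)
    linarith

end

end Vale.Agent.P184
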