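import Mathlib
import Vale.Agent.P184.Idem
import Vale.Agent.P184.SubChar

open Filter Topology MonoidAlgebra

namespace Vale.Agent.P184

noncomputable section

/-- data of a character of the centralizer of `g₀` dominated by a subadditive function -/
structure CharData {G : Type*} [Group G] (g₀ : G) (χ L : G → ℝ) : Prop where
  hom : ∀ z w, Commute z g₀ → Commute w g₀ → χ (z * w) = χ z + χ w
  ne : χ g₀ ≠ 0
  sub : ∀ x y, L (x * y) ≤ L x + L y
  dom : ∀ z, Commute z g₀ → |χ z| ≤ L z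

variable {G : Type*} [Group G]

/-- the centralizer -/
def Zc (g₀ : G) : Subgroup G := Subgroup.centralizer {g₀}

theorem mem_Zc {g₀ z : G} : z ∈ Zc g₀ ↔ Commute z g₀ := by
  unfold Zc
  rw [Subgroup.mem_centralizer_iff]
  simp only [Set.mem_singleton_iff, forall_eq]
  exact ⟨fun h => h.symm, fun h => h.symm⟩

theorem CharData.toSubChar {g₀ : G} {χ L : G → ℝ} (D : CharData g₀ χ L) :
    SubChar (Zc g₀) χ L where
  hom := fun z hz w hw => D.hom z w (mem_Zc.mp hz) (mem_Zc.mp hw)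
  sub := D.sub
  dom := fun z hz => D.dom z (mem_Zc.mp hz)

open Classical in
/-- the cocycle evaluated at a conjugate -/
def bf (g₀ : G) (χ L : G → ℝ) (g y : G) : ℝ :=
  if h : IsConj g₀ y then
    Hs (Zc g₀) χ L ((isConj_iff.mp h).choose⁻¹ * g) - Hs (Zc g₀) χ L (isConj_iff.mp h).choose⁻¹
  else 0

namespace CharData

variable {g₀ : G} {χ L : G → ℝ} (D : CharData g₀ χ L)
include D

theorem bf_eq {y s : G} (hs : s * g₀ * s⁻¹ = y) (g : G) :
    bf g₀ χ L g y = Hs (Zc g₀) χ L (s⁻¹ * g) - Hs (Zc g₀) χ L s⁻¹ := by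
  have h : IsConj g₀ y := isConj_iff.mpr ⟨s, hs⟩
  unfold bf
  rw [dif_pos h]
  set s' := (isConj_iff.mp h).choose with hs'
  have hs'2 : s' * g₀ * s'⁻¹ = y := (isConj_iff.mp h).choose_spec
  have hw : Commute (s'⁻¹ * s) g₀ := by
    have h1 : s' * g₀ * s'⁻¹ = s * g₀ * s⁻¹ := by rw [hs'2, hs]
    show s'⁻¹ * s * g₀ = g₀ * (s'⁻¹ * s)
    calc s'⁻¹ * s * g₀ = s'⁻¹ * (s * g₀ * s⁻¹) * s := by group
      _ = s'⁻¹ * (s' * g₀ * s'⁻¹) * s := by rw [h1]
      _ = g₀ * (s'⁻¹ * s) := by group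
  have e1 : s'⁻¹ * g = (s'⁻¹ * s) * (s⁻¹ * g) := by group
  have e2 : s'⁻¹ = (s'⁻¹ * s) * s⁻¹ := by group
  have e3 : Hs (Zc g₀) χ L s'⁻¹ = χ (s'⁻¹ * s) + Hs (Zc g₀) χ L s⁻¹ := by
    rw [← D.toSubChar.Hs_left (mem_Zc.mpr hw), ← e2]
  rw [e3, e1, D.toSubChar.Hs_left (mem_Zc.mpr hw)]
  ring

theorem bf_cocycle {y : G} (hy : IsConj g₀ y) (g h : G) :
    bf g₀ χ L (g * h) y = bf g₀ χ L g y + bf g₀ χ L h (g⁻¹ * y * g) := by
  obtain ⟨s, hs⟩ := isConj_iff.mp hy
  have h2 : (g⁻¹ * s) * g₀ * (g⁻¹ * s)⁻¹ = g⁻¹ * y * g := by rw [← hs]; group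
  rw [D.bf_eq hs, D.bf_eq hs, D.bf_eq h2]
  have e1 : (g⁻¹ * s)⁻¹ = s⁻¹ * g := by group
  rw [e1, mul_assoc]
  ring

theorem bf_bound (g y : G) : |bf g₀ χ L g y| ≤ max (L g) (L g⁻¹) := by
  unfold bf
  split_ifs with h
  · exact D.toSubChar.Hs_lip _ _
  · simpa using D.toSubChar.len_nonneg g

theorem decays {R : Type*} [NormedRing R] {t : R →+ ℂ} {K : ℝ} (hK0 : 0 ≤ K)
    (ht : ∀ a, ‖t a‖ ≤ K * ‖a‖) (htc : ∀ a b, t (a * b) = t (b * a)) :
    Decays (TS t {k : G | IsConj g₀ k}) := by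
  refine decays_of_psi (ψ := fun k g => bf g₀ χ L g (g * k)) (w := fun g => max (L g) (L g⁻¹))
    (c := χ g₀) hK0 ht htc ?_ ?_ ?_ D.ne ?_ ?_
  · intro k g h
    have e1 : g⁻¹ * (g * h * k) * g = h * (k * g) := by group
    have e2 : g * h * k = g * (h * k) := by group
    by_cases hy : IsConj g₀ (g * h * k)
    · rw [D.bf_cocycle hy, e1, e2]
    · have hy2 : ¬ IsConj g₀ (h * (k * g)) := by
        intro h3
        apply hy
        refine h3.trans (isConj_iff.mpr ⟨g, ?_⟩)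
        group
      rw [← e2]
      unfold bf
      rw [dif_neg hy, dif_neg hy, dif_neg hy2]
      ring
  · intro k g
    exact D.bf_bound g _
  · intro g h
    exact max_sub D.sub g h
  · intro g hg
    obtain ⟨s, hs⟩ := isConj_iff.mp (show IsConj g₀ g from hg)
    show bf g₀ χ L g (g * 1) = χ g₀
    rw [mul_one, D.bf_eq hs]
    have e1 : s⁻¹ * g = g₀ * s⁻¹ := by rw [← hs]; group
    rw [e1, D.toSubChar.Hs_left (mem_Zc.mpr (Commute.refl g₀))]
    ring
  · intro g hg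
    have hg' : ¬ IsConj g₀ (g * 1) := by rw [mul_one]; exact hg
    show bf g₀ χ L g (g * 1) = 0
    unfold bf
    rw [dif_neg hg']

end CharData

/-- the trace vanishing statement at the class of `g₀` -/
def VanishesAt (g₀ : G) : Prop :=
  ∀ (q : ℕ) (e : Fin q → Fin q → G → ℂ), (∀ i j, Summable fun g => ‖e i j g‖) →
    (∀ i j g, e i j g = ∑ k, ∑' h, e i k h * e k j (h⁻¹ * g)) →
    ∑ i, ∑' g : {g : G // IsConj g₀ g}, e i i g = 0

attribute [local instance] Matrix.linftyOpNormedRing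

/-- existence of character data -/
def HasChar (g₀ : G) : Prop := ∃ χ L : G → ℝ, CharData g₀ χ L

/-- local criterion -/
theorem vanishesAt_of_local (g₀ : G)
    (h : ∀ (H : Subgroup G), H.FG → ∀ h : H, IsConj g₀ (h : G) → HasChar h) :
    VanishesAt g₀ := by
  intro q e hs he
  refine trace_zero g₀ (fun H hH k hk => ?_) e hs he
  obtain ⟨χ, L, D⟩ := h H hH k hk
  exact D.decays (K := (Fintype.card (Fin q) : ℝ)) (by positivity) norm_trace_le
    (fun a b => Matrix.trace_mul_comm a b)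

theorem HasChar.comap {H : Type*} [Group H] (f : H →* G) {h : H} (D : HasChar (f h)) :
    HasChar h := by
  obtain ⟨χ, L, D⟩ := D
  exact ⟨fun x => χ (f x), fun x => L (f x),
    { hom := fun z w hz hw => by
        rw [map_mul]
        exact D.hom _ _ (hz.map f) (hw.map f)
      ne := D.ne
      sub := fun x y => by rw [map_mul]; exact D.sub _ _
      dom := fun z hz => D.dom _ (hz.map f) }⟩

theorem HasChar.conj {g₀ g₁ : G} (D : HasChar g₀) (h : IsConj g₀ g₁) : HasChar g₁ := by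
  obtain ⟨s, hs⟩ := isConj_iff.mp h
  have h2 : (MulAut.conj s⁻¹).toMonoidHom g₁ = g₀ := by
    rw [← hs]
    simp
    group
  exact HasChar.comap (MulAut.conj s⁻¹).toMonoidHom (h := g₁) (by rw [h2]; exact D)

/-- the global criterion -/
theorem HasChar.vanishesAt {g₀ : G} (D : HasChar g₀) : VanishesAt g₀ := by
  refine vanishesAt_of_local g₀ fun H _ h hh => ?_
  exact HasChar.comap H.subtype (h := h) (D.conj hh)

end

end Vale.Agent.P184
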