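import Mathlib
import Vale.Agent.P184.Criterion
import Vale.Agent.P184.AmenDefs

open Filter Topology

namespace Vale.Agent.P184

noncomputable section

variable {G : Type*} [Group G]

theorem zpow_inj_of_stable {g : G} {L : G → ℝ} {c : ℝ} (hc : 0 < c)
    (hg : ∀ n : ℕ, c * n ≤ L (g ^ n)) : Function.Injective fun n : ℤ => g ^ n := by
  rw [injective_zpow_iff_not_isOfFinOrder]
  intro h
  obtain ⟨n, hn, h1⟩ := isOfFinOrder_iff_pow_eq_one.mp h
  obtain ⟨k, hk⟩ := exists_nat_gt (L 1 / c)
  have h2 := hg (n * k)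
  rw [pow_mul, h1, one_pow] at h2
  rw [div_lt_iff₀ hc] at hk
  have h3 : (1 : ℝ) ≤ n := by exact_mod_cast hn
  have h4 : (k : ℝ) ≤ n * k := by
    have : (0 : ℝ) ≤ k := by positivity
    nlinarith
  push_cast at h2
  nlinarith

open Classical in
/-- the character of a cyclic group -/
def cycChar (g : G) (c : ℝ) (x : G) : ℝ :=
  if h : ∃ n : ℤ, g ^ n = x then c * (h.choose : ℝ) else 0

theorem cycChar_zpow {g : G} (hinj : Function.Injective fun n : ℤ => g ^ n) (c : ℝ) (n : ℤ) :
    cycChar g c (g ^ n) = c * n := by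
  unfold cycChar
  have h : ∃ m : ℤ, g ^ m = g ^ n := ⟨n, rfl⟩
  rw [dif_pos h]
  have := hinj h.choose_spec
  rw [this]

theorem subChar_cyc {g : G} {L : G → ℝ} {c : ℝ} (hc : 0 < c) (hL : ∀ x y, L (x * y) ≤ L x + L y)
    (hg : ∀ n : ℕ, c * n ≤ L (g ^ n)) :
    SubChar (Subgroup.zpowers g) (cycChar g c) (fun x => max (L x) (L x⁻¹)) where
  hom := by
    have hinj := zpow_inj_of_stable hc hg
    rintro _ ⟨n, rfl⟩ _ ⟨m, rfl⟩
    show cycChar g c (g ^ n * g ^ m) = cycChar g c (g ^ n) + cycChar g c (g ^ m)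
    rw [← zpow_add, cycChar_zpow hinj, cycChar_zpow hinj, cycChar_zpow hinj]
    push_cast
    ring
  sub := fun x y => max_sub hL x y
  dom := by
    have hinj := zpow_inj_of_stable hc hg
    rintro _ ⟨n, rfl⟩
    show |cycChar g c (g ^ n)| ≤ max (L (g ^ n)) (L (g ^ n)⁻¹)
    rw [cycChar_zpow hinj]
    obtain ⟨k, rfl | rfl⟩ := n.eq_nat_or_neg
    · have := hg k
      refine le_max_of_le_left ?_
      rw [abs_of_nonneg (by positivity)]
      simpa using this
    · have := hg k
      refine le_max_of_le_right ?_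
      push_cast
      rw [abs_of_nonpos (by
        have : 0 ≤ c * (k : ℝ) := by positivity
        linarith)]
      simpa using this

/-- amenable centralizer criterion -/
theorem hasChar_of_amenable (g : G) (L : G → ℝ) (hL : ∀ x y, L (x * y) ≤ L x + L y)
    (c : ℝ) (hc : 0 < c) (hg : ∀ n : ℕ, c * n ≤ L (g ^ n))
    (ham : Amenable (Subgroup.centralizer ({g} : Set G))) : HasChar g := by
  obtain ⟨m, madd, msmul, mpos, mone, minv⟩ := ham
  have hinj := zpow_inj_of_stable hc hg
  have D := subChar_cyc hc hL hg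
  set L' : G → ℝ := fun x => max (L x) (L x⁻¹) with hL'
  set H : G → ℝ := Hs (Subgroup.zpowers g) (cycChar g c) L' with hH
  set Λ : G → ℝ := fun s => max (L' s) (L' s⁻¹) with hΛ
  let F : G → Subgroup.centralizer ({g} : Set G) → ℝ := fun z y => H (y * z) - H y
  have hF : ∀ z y, |F z y| ≤ Λ z := fun z y => D.Hs_lip _ _
  have hFb : ∀ z, Bdd (F z) := fun z => ⟨Λ z, hF z⟩
  have hconst : ∀ r : ℝ, m (fun _ => r) = r := by
    intro r
    have := msmul r (fun _ => 1) ⟨1, fun _ => by simp⟩
    simp only [mul_one] at this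
    rw [this, mone, mul_one]
  have hle : ∀ f, Bdd f → ∀ r, (∀ x, f x ≤ r) → m f ≤ r := by
    intro f hf r hr
    obtain ⟨C, hC⟩ := hf
    have hneg : Bdd fun x => (-1) * f x := ⟨C, fun x => by simpa using hC x⟩
    have h1 := madd (fun _ => r) (fun x => (-1) * f x) ⟨|r|, fun _ => le_rfl⟩ hneg
    have h2 := msmul (-1) f ⟨C, hC⟩
    have h3 := mpos (fun x => r + (-1) * f x) ⟨|r| + C, fun x => by
      refine (abs_add_le _ _).trans (add_le_add le_rfl ?_)
      simpa using hC x⟩ (fun x => by linarith [hr x])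
    rw [h1, h2, hconst] at h3
    linarith
  have habs : ∀ f, Bdd f → ∀ r, (∀ x, |f x| ≤ r) → |m f| ≤ r := by
    intro f hf r hr
    rw [abs_le]
    constructor
    · have hneg : Bdd fun x => (-1) * f x := by
        obtain ⟨C, hC⟩ := hf
        exact ⟨C, fun x => by simpa using hC x⟩
      have h1 := hle _ hneg r (fun x => by have := neg_abs_le (f x); linarith [hr x])
      rw [msmul (-1) f hf] at h1
      linarith
    · exact hle f hf r (fun x => (le_abs_self _).trans (hr x))
  refine ⟨fun z => m (F z), Λ, ?_⟩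
  refine { hom := ?_, ne := ?_, sub := ?_, dom := ?_ }
  · intro z w hz hw
    have hz' : z ∈ Subgroup.centralizer ({g} : Set G) := mem_Zc.mpr hz
    have e1 : F (z * w) = fun y => F w (y * ⟨z, hz'⟩) + F z y := by
      funext y
      show H (y * (z * w)) - H y = (H ((y * z) * w) - H (y * z)) + (H (y * z) - H y)
      rw [mul_assoc]; ring
    have hb : Bdd fun y => F w (y * ⟨z, hz'⟩) := ⟨Λ w, fun y => hF w _⟩
    show m (F (z * w)) = m (F z) + m (F w)
    rw [e1, madd _ _ hb (hFb z), minv (F w) (hFb w) ⟨z, hz'⟩]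
    ring
  · have e1 : F g = fun _ => c := by
      funext y
      show H (y * g) - H y = c
      have hy : Commute (y : G) g := mem_Zc.mp y.2
      rw [hy.eq]
      have := D.Hs_left (Subgroup.mem_zpowers g) (y : G)
      have h2 : cycChar g c g = c := by
        have := cycChar_zpow hinj c 1
        simpa using this
      rw [hH, this, h2]
      ring
    show m (F g) ≠ 0
    rw [e1, hconst]
    exact hc.ne'
  · intro x y
    exact max_sub (fun a b => max_sub hL a b) x y
  · intro z _
    exact habs _ (hFb z) _ (hF z)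

end

end Vale.Agent.P184
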