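import Mathlib
import Vale.Agent.P184.Criterion

open Filter Topology

namespace Vale.Agent.P184

noncomputable section

section nu

variable {k : Type*} [Field k] (v : AbsoluteValue k ℝ)

/-- sum of absolute values of entries -/
def nu {m n : Type*} [Fintype m] [Fintype n] (A : Matrix m n k) : ℝ := ∑ i, ∑ j, v (A i j)

theorem nu_nonneg {m n : Type*} [Fintype m] [Fintype n] (A : Matrix m n k) : 0 ≤ nu v A :=
  Finset.sum_nonneg fun _ _ => Finset.sum_nonneg fun _ _ => v.nonneg _

theorem entry_le_nu {m n : Type*} [Fintype m] [Fintype n] (A : Matrix m n k) (i : m) (j : n) :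
    v (A i j) ≤ nu v A := by
  unfold nu
  refine le_trans ?_ (Finset.single_le_sum (f := fun i => ∑ j, v (A i j))
    (fun _ _ => Finset.sum_nonneg fun _ _ => v.nonneg _) (Finset.mem_univ i))
  exact Finset.single_le_sum (f := fun j => v (A i j)) (fun _ _ => v.nonneg _) (Finset.mem_univ j)

theorem nu_mul {l m n : Type*} [Fintype l] [Fintype m] [Fintype n] (A : Matrix l m k)
    (B : Matrix m n k) : nu v (A * B) ≤ nu v A * nu v B := by
  unfold nu
  calc ∑ i, ∑ j, v ((A * B) i j) ≤ ∑ i, ∑ j, ∑ p, v (A i p) * v (B p j) := by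
        refine Finset.sum_le_sum fun i _ => Finset.sum_le_sum fun j _ => ?_
        rw [Matrix.mul_apply]
        refine (v.sum_le _ _).trans (le_of_eq ?_)
        simp
    _ = ∑ i, ∑ p, v (A i p) * ∑ j, v (B p j) := by
        refine Finset.sum_congr rfl fun i _ => ?_
        rw [Finset.sum_comm]
        refine Finset.sum_congr rfl fun p _ => ?_
        rw [Finset.mul_sum]
    _ ≤ ∑ i, ∑ p, v (A i p) * ∑ p, ∑ j, v (B p j) := by
        refine Finset.sum_le_sum fun i _ => Finset.sum_le_sum fun p _ => ?_
        refine mul_le_mul_of_nonneg_left ?_ (v.nonneg _)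
        exact Finset.single_le_sum (f := fun p => ∑ j, v (B p j))
          (fun _ _ => Finset.sum_nonneg fun _ _ => v.nonneg _) (Finset.mem_univ p)
    _ = (∑ i, ∑ p, v (A i p)) * ∑ p, ∑ j, v (B p j) := by
        rw [Finset.sum_mul]
        refine Finset.sum_congr rfl fun i _ => ?_
        rw [Finset.sum_mul]

theorem det_le_nu {m : Type*} [Fintype m] [DecidableEq m] (A : Matrix m m k) :
    v A.det ≤ (Fintype.card m).factorial * (nu v A) ^ (Fintype.card m) := by
  rw [Matrix.det_apply]
  refine (v.sum_le _ _).trans ?_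
  have : ∀ σ ∈ (Finset.univ : Finset (Equiv.Perm m)),
      v (Equiv.Perm.sign σ • ∏ i, A (σ i) i) ≤ (nu v A) ^ (Fintype.card m) := by
    intro σ _
    have e1 : v (Equiv.Perm.sign σ • ∏ i, A (σ i) i) = ∏ i, v (A (σ i) i) := by
      rcases Int.units_eq_one_or (Equiv.Perm.sign σ) with h | h
      · rw [h, one_smul, map_prod]
      · rw [h, Units.neg_smul, one_smul, AbsoluteValue.map_neg, map_prod]
    rw [e1]
    refine (Finset.prod_le_prod (fun _ _ => v.nonneg _) (fun i _ => entry_le_nu v A (σ i) i)).trans ?_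
    rw [Finset.prod_const, Finset.card_univ]
  refine (Finset.sum_le_sum this).trans ?_
  rw [Finset.sum_const, Finset.card_univ, Fintype.card_perm, nsmul_eq_mul]

end nu

variable {G : Type*} [Group G]

/-- the linear criterion over a field with an absolute value -/
theorem hasChar_of_eigenvalue {k : Type*} [Field k] (v : AbsoluteValue k ℝ) {V : Type*}
    [AddCommGroup V] [Module k V] [Module.Finite k V] (ρ : G →* (V →ₗ[k] V)) (g : G) (l : k)
    (hl : v l ≠ 1) (x : V) (hx : x ≠ 0) (hgx : ρ g x = l • x) : HasChar g := by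
  classical
  set W : Submodule k V := Module.End.eigenspace (ρ g) l with hW
  have hxW : x ∈ W := by
    rw [hW, Module.End.mem_eigenspace_iff]; exact hgx
  have hinvW : ∀ z, Commute z g → ∀ y ∈ W, ρ z y ∈ W := by
    intro z hz y hy
    rw [hW, Module.End.mem_eigenspace_iff] at hy ⊢
    have : ρ g (ρ z y) = ρ z (ρ g y) := by
      have h1 : ρ g * ρ z = ρ z * ρ g := by rw [← map_mul, ← map_mul, hz.eq]
      exact LinearMap.congr_fun h1 y
    rw [this, hy, map_smul]
  obtain ⟨p, hp⟩ := LinearMap.exists_leftInverse_of_injective W.subtype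
    (by rw [Submodule.ker_subtype])
  have hp' : ∀ y : W, p (y : V) = y := fun y => LinearMap.congr_fun hp y
  let T : G → (W →ₗ[k] W) := fun z => p ∘ₗ (ρ z) ∘ₗ W.subtype
  have hT1 : T 1 = LinearMap.id := by
    ext y
    show ((p ((ρ 1) (y : V)) : W) : V) = y
    rw [map_one]
    show ((p (y : V) : W) : V) = y
    rw [hp']
  have hTmul : ∀ z w, Commute w g → T (z * w) = T z ∘ₗ T w := by
    intro z w hw
    ext y
    show ((p ((ρ (z * w)) (y : V)) : W) : V) = p (ρ z ((p (ρ w (y : V)) : W) : V))
    have h1 : ((p (ρ w (y : V)) : W) : V) = ρ w (y : V) := by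
      have := hp' ⟨ρ w (y : V), hinvW w hw y y.2⟩
      exact congrArg Subtype.val this
    rw [h1, map_mul]
    rfl
  have hdetmul : ∀ z w, Commute w g →
      LinearMap.det (T (z * w)) = LinearMap.det (T z) * LinearMap.det (T w) := by
    intro z w hw
    rw [hTmul z w hw, LinearMap.det_comp]
  have hdet1 : LinearMap.det (T 1) = 1 := by rw [hT1, LinearMap.det_id]
  have hdetne : ∀ z, Commute z g → LinearMap.det (T z) ≠ 0 := by
    intro z hz h0
    have := hdetmul z⁻¹ z hz
    rw [inv_mul_cancel, hdet1, h0, mul_zero] at this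
    exact one_ne_zero this
  -- bases
  set b := Module.finBasis k W with hb
  set β := Module.finBasis k V with hβ
  set m := Module.finrank k W with hm
  have hm1 : 0 < m := by
    have : Nontrivial W := ⟨⟨⟨x, hxW⟩, 0, fun h => hx (congrArg Subtype.val h)⟩⟩
    exact Module.finrank_pos
  let R : G → Matrix (Fin (Module.finrank k V)) (Fin (Module.finrank k V)) k :=
    fun z => LinearMap.toMatrix β β (ρ z)
  have hRmul : ∀ z w, R (z * w) = R z * R w := by
    intro z w
    show LinearMap.toMatrix β β (ρ (z * w)) = _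
    rw [map_mul]
    exact LinearMap.toMatrix_mul β (ρ z) (ρ w)
  set Cm := LinearMap.toMatrix β b p with hCm
  set Bm := LinearMap.toMatrix b β W.subtype with hBm
  have hTmat : ∀ z, LinearMap.toMatrix b b (T z) = Cm * (R z * Bm) := by
    intro z
    show LinearMap.toMatrix b b (p ∘ₗ (ρ z) ∘ₗ W.subtype) = _
    rw [LinearMap.toMatrix_comp b β b, LinearMap.toMatrix_comp b β β]
  set c0 : ℝ := max 1 (nu v Cm * nu v Bm) with hc0
  have hc01 : 1 ≤ c0 := le_max_left _ _
  set M : G → ℝ := fun z => max 1 (max (nu v (R z)) (nu v (R z⁻¹))) with hM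
  have hM1 : ∀ z, 1 ≤ M z := fun z => le_max_left _ _
  have hMmul : ∀ z w, M (z * w) ≤ M z * M w := by
    intro z w
    have h1 := hM1 z
    have h2 := hM1 w
    have a1 : nu v (R z) ≤ M z := (le_max_left _ _).trans (le_max_right _ _)
    have a2 : nu v (R z⁻¹) ≤ M z := (le_max_right _ _).trans (le_max_right _ _)
    have a3 : nu v (R w) ≤ M w := (le_max_left _ _).trans (le_max_right _ _)
    have a4 : nu v (R w⁻¹) ≤ M w := (le_max_right _ _).trans (le_max_right _ _)
    refine max_le (by nlinarith) (max_le ?_ ?_)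
    · rw [hRmul]
      exact (nu_mul v _ _).trans (mul_le_mul a1 a3 (nu_nonneg v _) (by linarith))
    · rw [mul_inv_rev, hRmul]
      refine (nu_mul v _ _).trans ?_
      rw [mul_comm]
      exact mul_le_mul a2 a4 (nu_nonneg v _) (by linarith)
  set κ : ℝ := Real.log ((m.factorial : ℝ) * c0 ^ m) with hκ
  have hκ0 : 0 ≤ κ := by
    refine Real.log_nonneg ?_
    have h1 : (1 : ℝ) ≤ m.factorial := by exact_mod_cast Nat.one_le_iff_ne_zero.mpr m.factorial_ne_zero
    have h2 : (1 : ℝ) ≤ c0 ^ m := one_le_pow₀ hc01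
    nlinarith
  have hupper : ∀ z, Commute z g → Real.log (v (LinearMap.det (T z))) ≤ κ + m * Real.log (M z) := by
    intro z hz
    have hpos : 0 < v (LinearMap.det (T z)) := v.pos (hdetne z hz)
    have hMz : 0 < M z := by linarith [hM1 z]
    have h1 : v (LinearMap.det (T z)) ≤ ((m.factorial : ℝ) * c0 ^ m) * (M z) ^ m := by
      rw [← LinearMap.det_toMatrix b (T z), hTmat z]
      refine (det_le_nu v _).trans ?_
      rw [Fintype.card_fin]
      have h2 : nu v (Cm * (R z * Bm)) ≤ c0 * M z := by
        refine (nu_mul v _ _).trans ?_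
        have h3 := nu_mul v (R z) Bm
        have h4 : nu v (R z) ≤ M z := (le_max_left _ _).trans (le_max_right _ _)
        have h5 := nu_nonneg v Cm
        have h6 := nu_nonneg v Bm
        calc nu v Cm * nu v (R z * Bm) ≤ nu v Cm * (M z * nu v Bm) :=
              mul_le_mul_of_nonneg_left (h3.trans (mul_le_mul_of_nonneg_right h4 h6)) h5
          _ = (nu v Cm * nu v Bm) * M z := by ring
          _ ≤ c0 * M z := mul_le_mul_of_nonneg_right (le_max_right _ _) hMz.le
      calc (m.factorial : ℝ) * nu v (Cm * (R z * Bm)) ^ m ≤ (m.factorial : ℝ) * (c0 * M z) ^ m :=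
            mul_le_mul_of_nonneg_left (pow_le_pow_left₀ (nu_nonneg v _) h2 m) (by positivity)
        _ = ((m.factorial : ℝ) * c0 ^ m) * (M z) ^ m := by rw [mul_pow]; ring
    have h2 := Real.log_le_log hpos h1
    rw [Real.log_mul (by positivity) (by positivity), Real.log_pow] at h2
    exact h2
  have hchi1 : Real.log (v (LinearMap.det (T 1))) = 0 := by rw [hdet1, map_one, Real.log_one]
  have hhom : ∀ z w, Commute z g → Commute w g → Real.log (v (LinearMap.det (T (z * w)))) =
      Real.log (v (LinearMap.det (T z))) + Real.log (v (LinearMap.det (T w))) := by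
    intro z w hz hw
    rw [hdetmul z w hw, map_mul, Real.log_mul (v.ne_zero (hdetne z hz)) (v.ne_zero (hdetne w hw))]
  refine ⟨fun z => Real.log (v (LinearMap.det (T z))), fun z => κ + m * Real.log (M z), ?_⟩
  refine { hom := hhom, ne := ?_, sub := ?_, dom := ?_ }
  · have hTg : T g = l • LinearMap.id := by
      ext y
      have hy : ρ g (y : V) = l • (y : V) := Module.End.mem_eigenspace_iff.mp y.2
      show ((p (ρ g (y : V)) : W) : V) = l • (y : V)
      rw [hy, map_smul, hp']
      rfl
    show Real.log (v (LinearMap.det (T g))) ≠ 0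
    rw [hTg, LinearMap.det_smul, LinearMap.det_id, mul_one, map_pow, Real.log_pow]
    have hl0 : l ≠ 0 := by
      intro h0
      have h1 := hdetne g (Commute.refl g)
      rw [hTg, h0, zero_smul, LinearMap.det_zero] at h1
      apply h1
      rw [zero_pow]
      exact hm1.ne'
    have h2 : 0 < v l := v.pos hl0
    refine mul_ne_zero (by exact_mod_cast hm1.ne') ?_
    exact Real.log_ne_zero_of_pos_of_ne_one h2 hl
  · intro z w
    have h1 : 0 < M (z * w) := by linarith [hM1 (z * w)]
    have h2 := Real.log_le_log h1 (hMmul z w)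
    rw [Real.log_mul (by linarith [hM1 z]) (by linarith [hM1 w])] at h2
    have h3 : (0 : ℝ) ≤ m := by positivity
    have h4 := mul_le_mul_of_nonneg_left h2 h3
    show κ + m * Real.log (M (z * w)) ≤ κ + m * Real.log (M z) + (κ + m * Real.log (M w))
    linarith
  · intro z hz
    have h1 := hupper z hz
    have h2 := hupper z⁻¹ hz.inv_left
    have h3 := hhom z z⁻¹ hz hz.inv_left
    rw [mul_inv_cancel, hchi1] at h3
    have h4 : M z⁻¹ = M z := by
      show max 1 (max (nu v (R z⁻¹)) (nu v (R z⁻¹⁻¹))) = _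
      rw [inv_inv, max_comm (nu v (R z⁻¹))]
    rw [h4] at h2
    show |Real.log (v (LinearMap.det (T z)))| ≤ κ + m * Real.log (M z)
    rw [abs_le]
    constructor <;> linarith

end

end Vale.Agent.P184
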