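import Mathlib
import Vale.Agent.P184.Linear
import Vale.Agent.P184.AbsVal

open Polynomial

namespace Vale.Agent.P184

noncomputable section

theorem prod_dvd_pow {K : Type*} [Field K] (Q : K[X]) (s : Multiset K)
    (h : ∀ l ∈ s, (X - C l) ∣ Q) : (s.map fun l => X - C l).prod ∣ Q ^ (Multiset.card s) := by
  induction s using Multiset.induction_on with
  | empty => simp
  | cons a s ih =>
    rw [Multiset.map_cons, Multiset.prod_cons, Multiset.card_cons, pow_succ']
    exact mul_dvd_mul (h a (Multiset.mem_cons_self a s))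
      (ih fun l hl => h l (Multiset.mem_cons_of_mem hl))

theorem exists_eigenvalue_not_root_of_unity {K : Type*} [Field K] [IsAlgClosed K] {n : ℕ}
    (M : Matrix (Fin n) (Fin n) K) (hM : ∀ m : ℕ, 0 < m → ¬ IsNilpotent (M ^ m - 1)) :
    ∃ l : K, M.charpoly.IsRoot l ∧ ∀ m : ℕ, 0 < m → l ^ m ≠ 1 := by
  classical
  by_contra hcon
  push Not at hcon
  set s := M.charpoly.roots with hs
  have hmon : M.charpoly.Monic := Matrix.charpoly_monic M
  have hroot : ∀ l ∈ s, ∃ m : ℕ, 0 < m ∧ l ^ m = 1 := by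
    intro l hl
    obtain ⟨m, hm, h1⟩ := hcon l (Polynomial.isRoot_of_mem_roots hl)
    exact ⟨m, hm, h1⟩
  choose! f hf0 hf1 using hroot
  set N := ∏ l ∈ s.toFinset, f l with hN
  have hN0 : 0 < N := Finset.prod_pos fun l hl => hf0 l (Multiset.mem_toFinset.mp hl)
  have hN1 : ∀ l ∈ s, l ^ N = 1 := by
    intro l hl
    have : f l ∣ N := Finset.dvd_prod_of_mem f (Multiset.mem_toFinset.mpr hl)
    obtain ⟨c, hc⟩ := this
    rw [hc, pow_mul, hf1 l hl, one_pow]
  have hdvd : ∀ l ∈ s, (X - C l) ∣ (X ^ N - 1 : K[X]) := by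
    intro l hl
    rw [Polynomial.dvd_iff_isRoot]
    simp [hN1 l hl]
  have hprod : M.charpoly = (s.map fun l => X - C l).prod := by
    have := (IsAlgClosed.splits M.charpoly).eq_prod_roots_of_monic hmon
    exact this
  have h1 := prod_dvd_pow (X ^ N - 1 : K[X]) s hdvd
  rw [← hprod] at h1
  obtain ⟨c, hc⟩ := h1
  apply hM N hN0
  refine ⟨Multiset.card s, ?_⟩
  have h2 := congrArg (Polynomial.aeval M) hc
  rw [map_mul, Matrix.aeval_self_charpoly, zero_mul] at h2
  simpa using h2

/-- eigenvalue in the base field, matrices over a finite extension -/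
theorem hasChar_of_finite_ext {k : Type*} [Field k] (v : AbsoluteValue k ℝ) {F : Type*} [Field F]
    [Algebra k F] [Module.Finite k F] {n : ℕ} {H : Type*} [Group H]
    (R : H →* Matrix (Fin n) (Fin n) F) (h : H) (l : k) (hl : v l ≠ 1)
    (hdet : (R h - (algebraMap k F l) • (1 : Matrix (Fin n) (Fin n) F)).det = 0) : HasChar h := by
  let ρ : H →* ((Fin n → F) →ₗ[k] (Fin n → F)) :=
    { toFun := fun x => (Matrix.mulVecLin (R x)).restrictScalars k
      map_one' := by
        rw [map_one, Matrix.mulVecLin_one]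
        rfl
      map_mul' := fun x y => by
        rw [map_mul, Matrix.mulVecLin_mul]
        rfl }
  obtain ⟨x, hx0, hx⟩ := Matrix.exists_mulVec_eq_zero_iff.mpr hdet
  refine hasChar_of_eigenvalue v ρ h l hl x hx0 ?_
  show (R h).mulVec x = l • x
  rw [Matrix.sub_mulVec, sub_eq_zero, Matrix.smul_mulVec, Matrix.one_mulVec] at hx
  rw [hx, algebraMap_smul]

/-- matrices over a finitely generated algebra -/
theorem hasChar_of_finiteType {k : Type*} [Field k] (v : AbsoluteValue k ℝ) {A : Type*}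
    [CommRing A] [Nontrivial A] [Algebra k A] [Algebra.FiniteType k A] {n : ℕ} {H : Type*} [Group H]
    (R : H →* Matrix (Fin n) (Fin n) A) (h : H) (l : k) (hl : v l ≠ 1)
    (hdet : (R h - (algebraMap k A l) • (1 : Matrix (Fin n) (Fin n) A)).det = 0) : HasChar h := by
  obtain ⟨𝔪, h𝔪⟩ := Ideal.exists_maximal A
  letI : Field (A ⧸ 𝔪) := Ideal.Quotient.field 𝔪
  haveI : Algebra.FiniteType k (A ⧸ 𝔪) :=
    Algebra.FiniteType.of_surjective (Ideal.Quotient.mkₐ k 𝔪) (Ideal.Quotient.mkₐ_surjective k 𝔪)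
  haveI : Module.Finite k (A ⧸ 𝔪) := finite_of_finite_type_of_isJacobsonRing k (A ⧸ 𝔪)
  let RF : H →* Matrix (Fin n) (Fin n) (A ⧸ 𝔪) :=
    ((Ideal.Quotient.mk 𝔪).mapMatrix : Matrix (Fin n) (Fin n) A →+* Matrix (Fin n) (Fin n) (A ⧸ 𝔪)).toMonoidHom.comp R
  refine hasChar_of_finite_ext v RF h l hl ?_
  have h1 := congrArg (Ideal.Quotient.mk 𝔪) hdet
  rw [RingHom.map_det, map_zero, map_sub] at h1
  rw [← h1]
  congr 2
  ext i j
  simp only [RingHom.mapMatrix_apply, Matrix.map_apply, Matrix.smul_apply, Matrix.one_apply]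
  rw [smul_eq_mul, smul_eq_mul, map_mul]
  congr 1
  split_ifs <;> simp

/-- specialization step -/
theorem hasChar_of_fg_linear {K : Type*} [Field K] {n : ℕ} {H : Type*} [Group H] [Group.FG H]
    (R : H →* Matrix (Fin n) (Fin n) K) (h : H) (l : K)
    (hdet : (R h - l • (1 : Matrix (Fin n) (Fin n) K)).det = 0)
    (hl0 : l ≠ 0) (hl : ∀ m : ℕ, 0 < m → l ^ m ≠ 1) : HasChar h := by
  classical
  obtain ⟨k₁, l₁, v, hl₁, hv⟩ := exists_abv l hl0 hl
  obtain ⟨S, hS, hSfin⟩ := Monoid.fg_iff.mp (Group.fg_iff_monoid_fg.mp (inferInstance : Group.FG H))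
  set T : Set K := ⋃ i : Fin n, ⋃ j : Fin n, (fun x : H => R x i j) '' S with hT
  have hTfin : T.Finite := Set.finite_iUnion fun i => Set.finite_iUnion fun j => hSfin.image _
  set A : Subalgebra k₁ K := Algebra.adjoin k₁ T with hA
  have hmem : ∀ x : H, ∀ i j, R x i j ∈ A := by
    intro x
    have hx : x ∈ Submonoid.closure S := by rw [hS]; trivial
    induction hx using Submonoid.closure_induction with
    | mem x hx =>
      intro i j
      refine Algebra.subset_adjoin ?_
      simp only [hT, Set.mem_iUnion]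
      exact ⟨i, j, x, hx, rfl⟩
    | one =>
      intro i j
      rw [map_one, Matrix.one_apply]
      split_ifs
      · exact A.one_mem
      · exact A.zero_mem
    | mul x y _ _ ihx ihy =>
      intro i j
      rw [map_mul, Matrix.mul_apply]
      exact A.sum_mem fun k _ => A.mul_mem (ihx i k) (ihy k j)
  haveI hfin : Algebra.FiniteType k₁ A := by
    rw [← Subalgebra.fg_iff_finiteType]
    exact ⟨hTfin.toFinset, by rw [Set.Finite.coe_toFinset]⟩
  -- matrices over A
  have hinj : Function.Injective fun M : Matrix (Fin n) (Fin n) A => M.map A.val :=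
    Matrix.map_injective Subtype.coe_injective
  let RA : H →* Matrix (Fin n) (Fin n) A :=
    { toFun := fun x => Matrix.of fun i j => ⟨R x i j, hmem x i j⟩
      map_one' := by
        apply hinj
        ext i j
        show R 1 i j = A.val ((1 : Matrix (Fin n) (Fin n) A) i j)
        rw [map_one, Matrix.one_apply, Matrix.one_apply]
        split_ifs <;> simp
      map_mul' := fun x y => by
        apply hinj
        ext i j
        show R (x * y) i j = A.val (∑ k, (⟨R x i k, hmem x i k⟩ : A) * ⟨R y k j, hmem y k j⟩)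
        rw [map_mul, Matrix.mul_apply, map_sum]
        rfl }
  refine hasChar_of_finiteType v RA h l₁ hv ?_
  have h1 : A.val ((RA h - (algebraMap k₁ A l₁) • (1 : Matrix (Fin n) (Fin n) A)).det) = 0 := by
    rw [AlgHom.map_det, ← hdet]
    congr 1
    ext i j
    show A.val ((RA h i j) - (algebraMap k₁ A l₁) • ((1 : Matrix (Fin n) (Fin n) A) i j)) =
      R h i j - l • ((1 : Matrix (Fin n) (Fin n) K) i j)
    rw [map_sub, smul_eq_mul, smul_eq_mul, map_mul]
    congr 2
    rw [Matrix.one_apply, Matrix.one_apply]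
    split_ifs <;> simp
  exact Subtype.coe_injective h1

theorem conj_nilpotent {M : Type*} [Ring M] (c a : M) (d : M) (hcd : c * d = 1) (hdc : d * c = 1)
    (m : ℕ) (h : IsNilpotent ((c * a * d) ^ m - 1)) : IsNilpotent (a ^ m - 1) := by
  obtain ⟨k, hk⟩ := h
  refine ⟨k, ?_⟩
  have h1 : ∀ m, (c * a * d) ^ m = c * a ^ m * d := by
    intro m
    induction m with
    | zero => simp [hcd]
    | succ m ih =>
      rw [pow_succ, ih, pow_succ]
      calc c * a ^ m * d * (c * a * d) = c * a ^ m * (d * c) * a * d := by noncomm_ring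
        _ = c * (a ^ m * a) * d := by rw [hdc]; noncomm_ring
  have h2 : (c * a * d) ^ m - 1 = c * (a ^ m - 1) * d := by
    rw [h1, mul_sub, sub_mul, mul_one, hcd]
  have h3 : ∀ k, (c * (a ^ m - 1) * d) ^ k = c * (a ^ m - 1) ^ k * d := by
    intro k
    induction k with
    | zero => simp [hcd]
    | succ k ih =>
      rw [pow_succ, ih, pow_succ]
      calc c * (a ^ m - 1) ^ k * d * (c * (a ^ m - 1) * d)
          = c * (a ^ m - 1) ^ k * (d * c) * (a ^ m - 1) * d := by noncomm_ring
        _ = c * ((a ^ m - 1) ^ k * (a ^ m - 1)) * d := by rw [hdc]; noncomm_ring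
  rw [h2, h3] at hk
  have h4 : d * (c * (a ^ m - 1) ^ k * d) * c = (a ^ m - 1) ^ k := by
    calc d * (c * (a ^ m - 1) ^ k * d) * c = (d * c) * (a ^ m - 1) ^ k * (d * c) := by noncomm_ring
      _ = (a ^ m - 1) ^ k := by rw [hdc]; noncomm_ring
  rw [← h4, hk]
  simp

variable {G : Type*} [Group G]

/-- linear groups over arbitrary fields -/
theorem vanishesAt_linear {K : Type*} [Field K] {n : ℕ} (ρ : G →* Matrix (Fin n) (Fin n) K) (g : G)
    (hg : ∀ m : ℕ, 0 < m → ¬ IsNilpotent ((ρ g) ^ m - 1)) : VanishesAt g := by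
  classical
  refine vanishesAt_of_local g fun H hH h hconj => ?_
  haveI : Group.FG H := (Group.fg_iff_subgroup_fg H).mpr hH
  let Kb := AlgebraicClosure K
  let R : G →* Matrix (Fin n) (Fin n) Kb :=
    ((algebraMap K Kb).mapMatrix : Matrix (Fin n) (Fin n) K →+* Matrix (Fin n) (Fin n) Kb).toMonoidHom.comp ρ
  have hRinj : Function.Injective
      ((algebraMap K Kb).mapMatrix : Matrix (Fin n) (Fin n) K →+* Matrix (Fin n) (Fin n) Kb) :=
    Matrix.map_injective (algebraMap K Kb).injective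
  have hR : ∀ m : ℕ, 0 < m → ¬ IsNilpotent ((R g) ^ m - 1) := by
    intro m hm hnil
    apply hg m hm
    have h1 : (R g) ^ m - 1 =
        ((algebraMap K Kb).mapMatrix : Matrix (Fin n) (Fin n) K →+* Matrix (Fin n) (Fin n) Kb)
          ((ρ g) ^ m - 1) := by
      rw [map_sub, map_pow, map_one]
      rfl
    rw [h1] at hnil
    exact (IsNilpotent.map_iff hRinj).mp hnil
  have hRh : ∀ m : ℕ, 0 < m → ¬ IsNilpotent ((R (h : G)) ^ m - 1) := by
    intro m hm hnil
    obtain ⟨c, hc⟩ := isConj_iff.mp hconj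
    rw [← hc, map_mul, map_mul] at hnil
    exact hR m hm (conj_nilpotent (R c) (R g) (R c⁻¹) (by rw [← map_mul, mul_inv_cancel, map_one])
      (by rw [← map_mul, inv_mul_cancel, map_one]) m hnil)
  obtain ⟨l, hroot, hl⟩ := exists_eigenvalue_not_root_of_unity (R (h : G)) hRh
  have hdet : (R (h : G) - l • (1 : Matrix (Fin n) (Fin n) Kb)).det = 0 := by
    have h1 : (Matrix.scalar (Fin n) l - R (h : G)).det = 0 := by
      rw [← Matrix.eval_charpoly]
      exact hroot
    have h2 : R (h : G) - l • (1 : Matrix (Fin n) (Fin n) Kb) =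
        -(Matrix.scalar (Fin n) l - R (h : G)) := by
      rw [neg_sub]
      congr 1
      ext i j
      simp [Matrix.scalar_apply, Matrix.diagonal_apply, Matrix.one_apply]
    rw [h2, Matrix.det_neg, h1, mul_zero]
  have hl0 : l ≠ 0 := by
    intro h0
    rw [h0, zero_smul, sub_zero] at hdet
    have h1 : R (h : G) * R (h : G)⁻¹ = 1 := by rw [← map_mul, mul_inv_cancel, map_one]
    have h2 := congrArg Matrix.det h1
    rw [Matrix.det_mul, hdet, zero_mul, Matrix.det_one] at h2
    exact zero_ne_one h2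
  exact hasChar_of_fg_linear (R.comp H.subtype) h l hdet hl0 hl

/-- positive characteristic -/
theorem vanishesAt_linear_charP {K : Type*} [Field K] (p : ℕ) [Fact p.Prime] [CharP K p] {n : ℕ}
    (ρ : G →* Matrix (Fin n) (Fin n) K) (hρ : Function.Injective ρ) (g : G)
    (hg : ¬ IsOfFinOrder g) : VanishesAt g := by
  refine vanishesAt_linear ρ g fun m hm hnil => hg ?_
  obtain ⟨k, hk⟩ := hnil
  rcases Nat.eq_zero_or_pos n with hn | hn
  · subst hn
    rw [isOfFinOrder_iff_pow_eq_one]
    refine ⟨1, one_pos, ?_⟩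
    apply hρ
    ext i
    exact i.elim0
  · haveI : Nonempty (Fin n) := ⟨⟨0, hn⟩⟩
    haveI : CharP (Matrix (Fin n) (Fin n) K) p := Matrix.charP p
    obtain ⟨r, hr⟩ : ∃ r, k ≤ p ^ r := by
      obtain ⟨r, hr⟩ := pow_unbounded_of_one_lt k (Fact.out : p.Prime).one_lt
      exact ⟨r, hr.le⟩
    have h1 : ((ρ g) ^ m - 1) ^ (p ^ r) = 0 := pow_eq_zero_of_le hr hk
    have h2 : ((ρ g) ^ m) ^ (p ^ r) - 1 = 0 := by
      rw [← h1, sub_pow_char_pow_of_commute p r (Commute.one_right _), one_pow]
    rw [sub_eq_zero, ← pow_mul, ← map_pow, ← map_one ρ] at h2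
    rw [isOfFinOrder_iff_pow_eq_one]
    exact ⟨m * p ^ r, Nat.mul_pos hm (pow_pos (Fact.out : p.Prime).pos r), hρ h2⟩

end

end Vale.Agent.P184
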