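import Mathlib

namespace Vale.Agent.P184

/-- `f` is piecewise linear with finitely many breakpoints: there is a finite set `B` such that `f`
is affine on every closed interval without a point of `B` in its interior. -/
def IsPL (f : ℝ → ℝ) : Prop :=
  ∃ B : Finset ℝ, ∀ x y : ℝ, (∀ b ∈ B, b ≤ x ∨ y ≤ b) →
    ∃ a c : ℝ, ∀ t ∈ Set.Icc x y, f t = a * t + c

end Vale.Agent.P184
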