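import Mathlib
import Vale.Agent.P184.Criterion
import Vale.Agent.P184.PLDefs

open Filter Topology

namespace Vale.Agent.P184

noncomputable section

/-- right slope -/
def HasSlope (f : ℝ → ℝ) (t a : ℝ) : Prop :=
  ∃ δ > 0, ∀ y ∈ Set.Icc t (t + δ), f y = f t + a * (y - t)

theorem exists_gap (B : Finset ℝ) (t : ℝ) : ∃ δ > 0, ∀ b ∈ B, b ≤ t ∨ t + δ ≤ b := by
  classical
  induction B using Finset.induction_on with
  | empty => exact ⟨1, one_pos, by simp⟩
  | insert b B _ ih =>
    obtain ⟨δ, hδ, h⟩ := ih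
    by_cases hb : b ≤ t
    · refine ⟨δ, hδ, ?_⟩
      intro c hc
      rcases Finset.mem_insert.mp hc with rfl | hc
      · exact Or.inl hb
      · exact h c hc
    · push Not at hb
      refine ⟨min δ (b - t), lt_min hδ (by linarith), ?_⟩
      intro c hc
      rcases Finset.mem_insert.mp hc with rfl | hc
      · right
        have := min_le_right δ (c - t)
        linarith
      · rcases h c hc with h1 | h1
        · exact Or.inl h1
        · right
          have := min_le_left δ (b - t)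
          linarith

theorem HasSlope.unique {f : ℝ → ℝ} {t a b : ℝ} (ha : HasSlope f t a) (hb : HasSlope f t b) :
    a = b := by
  obtain ⟨δ, hδ, h1⟩ := ha
  obtain ⟨ε, hε, h2⟩ := hb
  have hm : 0 < min δ ε := lt_min hδ hε
  have e1 := h1 (t + min δ ε) ⟨by linarith, by have := min_le_left δ ε; linarith⟩
  have e2 := h2 (t + min δ ε) ⟨by linarith, by have := min_le_right δ ε; linarith⟩
  have e3 : a * min δ ε = b * min δ ε := by
    have : t + min δ ε - t = min δ ε := by ring
    rw [this] at e1 e2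
    linarith
  exact mul_right_cancel₀ hm.ne' e3

theorem affine_slope {f : ℝ → ℝ} {x y t a c : ℝ} (h : ∀ s ∈ Set.Icc x y, f s = a * s + c)
    (hxt : x ≤ t) (hty : t < y) : HasSlope f t a := by
  refine ⟨y - t, by linarith, ?_⟩
  intro s hs
  rw [h s ⟨hxt.trans hs.1, by linarith [hs.2]⟩, h t ⟨hxt, hty.le⟩]
  ring

theorem exists_slope {f : ℝ → ℝ} (hf : IsPL f) (t : ℝ) : ∃ a, HasSlope f t a := by
  obtain ⟨B, hB⟩ := hf
  obtain ⟨δ, hδ, h⟩ := exists_gap B t
  obtain ⟨a, c, hac⟩ := hB t (t + δ) h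
  exact ⟨a, affine_slope hac le_rfl (by linarith)⟩

open Classical in
/-- the slope function -/
def sl (f : ℝ → ℝ) (t : ℝ) : ℝ := if h : ∃ a, HasSlope f t a then h.choose else 1

theorem sl_eq {f : ℝ → ℝ} {t a : ℝ} (h : HasSlope f t a) : sl f t = a := by
  have h' : ∃ a, HasSlope f t a := ⟨a, h⟩
  unfold sl
  rw [dif_pos h']
  exact h'.choose_spec.unique h

theorem sl_spec {f : ℝ → ℝ} (hf : IsPL f) (t : ℝ) : HasSlope f t (sl f t) := by
  obtain ⟨a, ha⟩ := exists_slope hf t
  rw [sl_eq ha]; exact ha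

theorem HasSlope.pos {f : ℝ → ℝ} (hf : StrictMono f) {t a : ℝ} (h : HasSlope f t a) : 0 < a := by
  obtain ⟨δ, hδ, h1⟩ := h
  have e1 := h1 (t + δ) ⟨by linarith, le_rfl⟩
  have e2 := hf (show t < t + δ by linarith)
  have : t + δ - t = δ := by ring
  rw [this] at e1
  have h3 : 0 < a * δ := by linarith
  by_contra hcon
  push Not at hcon
  nlinarith

theorem HasSlope.comp {f g : ℝ → ℝ} (hg : StrictMono g) {t a b : ℝ} (ha : HasSlope f (g t) a)
    (hb : HasSlope g t b) : HasSlope (fun x => f (g x)) t (a * b) := by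
  have hb0 := hb.pos hg
  obtain ⟨δ, hδ, h1⟩ := ha
  obtain ⟨ε, hε, h2⟩ := hb
  refine ⟨min ε (δ / b), lt_min hε (div_pos hδ hb0), ?_⟩
  intro y hy
  have hy1 : y ∈ Set.Icc t (t + ε) := ⟨hy.1, hy.2.trans (by have := min_le_left ε (δ / b); linarith)⟩
  have e1 := h2 y hy1
  have hy2 : b * (y - t) ≤ δ := by
    have h3 : y - t ≤ δ / b := by
      have := min_le_right ε (δ / b)
      linarith [hy.2]
    calc b * (y - t) ≤ b * (δ / b) := mul_le_mul_of_nonneg_left h3 hb0.le
      _ = δ := by field_simp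
  have hy3 : 0 ≤ b * (y - t) := mul_nonneg hb0.le (by linarith [hy.1])
  have e2 := h1 (g y) ⟨by linarith, by linarith⟩
  show f (g y) = f (g t) + a * b * (y - t)
  rw [e2, e1]
  ring

theorem slopes_bdd {f : ℝ → ℝ} (hf : IsPL f) : BddAbove (Set.range fun t => |Real.log (sl f t)|) := by
  classical
  obtain ⟨B, hB⟩ := hf
  have hfPL : IsPL f := ⟨B, hB⟩
  have key : ∀ t t', t ≤ t' → B.filter (fun b => b ≤ t) = B.filter (fun b => b ≤ t') →
      sl f t = sl f t' := by
    intro t t' htt' hS
    obtain ⟨δ, hδ, h⟩ := exists_gap B t'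
    have h2 : ∀ b ∈ B, b ≤ t ∨ t' + δ ≤ b := by
      intro b hb
      rcases h b hb with h3 | h3
      · left
        have : b ∈ B.filter (fun b => b ≤ t') := Finset.mem_filter.mpr ⟨hb, h3⟩
        rw [← hS] at this
        exact (Finset.mem_filter.mp this).2
      · exact Or.inr h3
    obtain ⟨a, c, hac⟩ := hB t (t' + δ) h2
    rw [sl_eq (affine_slope hac le_rfl (by linarith)), sl_eq (affine_slope hac htt' (by linarith))]
  have key2 : ∀ t t', B.filter (fun b => b ≤ t) = B.filter (fun b => b ≤ t') →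
      sl f t = sl f t' := by
    intro t t' hS
    rcases le_total t t' with h | h
    · exact key t t' h hS
    · exact (key t' t h hS.symm).symm
  have hfin : (Set.range fun t => |Real.log (sl f t)|).Finite := by
    let F : Finset ℝ → ℝ := fun s =>
      if h : ∃ t, B.filter (fun b => b ≤ t) = s then |Real.log (sl f h.choose)| else 0
    refine ((B.powerset.finite_toSet).image F).subset ?_
    rintro _ ⟨t, rfl⟩
    refine ⟨B.filter (fun b => b ≤ t), ?_, ?_⟩
    · rw [Finset.mem_coe, Finset.mem_powerset]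
      exact Finset.filter_subset _ _
    · have h : ∃ t', B.filter (fun b => b ≤ t') = B.filter (fun b => b ≤ t) := ⟨t, rfl⟩
      show (if h : ∃ t', B.filter (fun b => b ≤ t') = B.filter (fun b => b ≤ t) then
        |Real.log (sl f h.choose)| else 0) = |Real.log (sl f t)|
      rw [dif_pos h, key2 _ _ h.choose_spec]
  exact hfin.bddAbove

variable {G : Type*} [Group G]

/-- groups of piecewise linear homeomorphisms -/
theorem hasChar_of_PL (φ : G →* (ℝ ≃o ℝ)) (hPL : ∀ x, IsPL (φ x))
    (hsupp : ∀ x, ∃ M : ℝ, ∀ t ≤ M, φ x t = t) (g : G) (hg : φ g ≠ 1) : HasChar g := by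
  classical
  have hmul : ∀ x y t, φ (x * y) t = φ x (φ y t) := by
    intro x y t
    rw [map_mul]; rfl
  have hone : ∀ t, φ 1 t = t := by
    intro t; rw [map_one]; rfl
  set A : Set ℝ := {t | φ g t ≠ t} with hA
  have hAne : A.Nonempty := by
    by_contra hcon
    apply hg
    ext t
    by_contra h
    exact hcon ⟨t, h⟩
  have hAbdd : BddBelow A := by
    obtain ⟨M, hM⟩ := hsupp g
    refine ⟨M, ?_⟩
    intro t ht
    by_contra hlt
    push Not at hlt
    exact ht (hM t hlt.le)
  set p := sInf A with hp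
  have hfix : ∀ w, Commute w g → φ w p = p := by
    intro w hw
    have h1 : φ w p = sInf (φ w '' A) := OrderIso.map_csInf' (φ w) hAne hAbdd
    have h2 : ∀ w, Commute w g → ∀ t ∈ A, φ w t ∈ A := by
      intro w hw t ht h3
      apply ht
      rw [← hmul, ← hw.eq, hmul] at h3
      exact (φ w).injective h3
    have h3 : φ w '' A = A := by
      apply Set.Subset.antisymm
      · rintro _ ⟨t, ht, rfl⟩
        exact h2 w hw t ht
      · intro t ht
        refine ⟨φ w⁻¹ t, h2 w⁻¹ hw.inv_left t ht, ?_⟩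
        rw [← hmul, mul_inv_cancel, hone]
    rw [h1, h3]
  have hslmul : ∀ x y t, sl (φ (x * y)) t = sl (φ x) (φ y t) * sl (φ y) t := by
    intro x y t
    have h1 := (sl_spec (hPL x) (φ y t)).comp (φ y).strictMono (sl_spec (hPL y) t)
    have h2 : (fun s => φ x (φ y s)) = φ (x * y) := by
      funext s; rw [hmul]
    rw [h2] at h1
    exact sl_eq h1
  have hslpos : ∀ x t, 0 < sl (φ x) t := fun x t => (sl_spec (hPL x) t).pos (φ x).strictMono
  have hle : ∀ x t, |Real.log (sl (φ x) t)| ≤ ⨆ t, |Real.log (sl (φ x) t)| := fun x t =>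
    le_ciSup (slopes_bdd (hPL x)) t
  refine ⟨fun z => Real.log (sl (φ z) p), fun x => ⨆ t, |Real.log (sl (φ x) t)|, ?_⟩
  refine { hom := ?_, ne := ?_, sub := ?_, dom := ?_ }
  · intro z w _ hw
    show Real.log (sl (φ (z * w)) p) = _
    rw [hslmul, hfix w hw, Real.log_mul (hslpos z p).ne' (hslpos w p).ne']
  · intro h0
    have hs1 : sl (φ g) p = 1 := by
      have h1 : Real.log (sl (φ g) p) = 0 := h0
      exact Real.eq_one_of_pos_of_log_eq_zero (hslpos g p) h1
    obtain ⟨δ, hδ, h2⟩ := sl_spec (hPL g) p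
    rw [hs1, hfix g (Commute.refl g)] at h2
    obtain ⟨t, htA, ht⟩ := exists_lt_of_csInf_lt hAne (show sInf A < p + δ by rw [← hp]; linarith)
    have h3 : p ≤ t := csInf_le hAbdd htA
    have h4 := h2 t ⟨h3, ht.le⟩
    apply htA
    rw [h4]; ring
  · intro x y
    refine ciSup_le fun t => ?_
    rw [hslmul, Real.log_mul (hslpos x _).ne' (hslpos y t).ne']
    exact (abs_add_le _ _).trans (add_le_add (hle x _) (hle y t))
  · intro z _
    exact hle z p

end

end Vale.Agent.P184
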