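import Mathlib
import Vale.Agent.P184.Criterion

open Filter Topology

namespace Vale.Agent.P184

noncomputable section

theorem exists_ultra_lim (s : ℕ → ℝ) (M : ℝ) (h : ∀ n, |s n| ≤ M) :
    ∃ l : ℝ, Tendsto s (hyperfilter ℕ : Filter ℕ) (𝓝 l) := by
  have hc : IsCompact (Set.Icc (-M) M) := isCompact_Icc
  have h1 : ((Ultrafilter.map s (hyperfilter ℕ) : Ultrafilter ℝ) : Filter ℝ) ≤
      𝓟 (Set.Icc (-M) M) := by
    rw [Filter.le_principal_iff]
    refine Filter.mem_map.mpr (Filter.univ_mem' fun n => ?_)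
    exact abs_le.mp (h n)
  obtain ⟨l, _, hl⟩ := hc.ultrafilter_le_nhds _ h1
  exact ⟨l, hl⟩

/-- limit along the hyperfilter -/
def ulim (s : ℕ → ℝ) : ℝ := limUnder (hyperfilter ℕ : Filter ℕ) s

theorem tendsto_ulim {s : ℕ → ℝ} {M : ℝ} (h : ∀ n, |s n| ≤ M) :
    Tendsto s (hyperfilter ℕ : Filter ℕ) (𝓝 (ulim s)) :=
  tendsto_nhds_limUnder (exists_ultra_lim s M h)

theorem hyper_le_atTop : (hyperfilter ℕ : Filter ℕ) ≤ atTop := by
  rw [← Nat.cofinite_eq_atTop]
  exact Filter.hyperfilter_le_cofinite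

/-- Cesaro means -/
def ces (u : ℕ → ℝ) (N : ℕ) : ℝ := (N : ℝ)⁻¹ * ∑ n ∈ Finset.range N, u n

theorem ces_bound {u : ℕ → ℝ} {M : ℝ} (hM : ∀ n, |u n| ≤ M) (N : ℕ) : |ces u N| ≤ M := by
  have hM0 : 0 ≤ M := (abs_nonneg _).trans (hM 0)
  unfold ces
  rcases Nat.eq_zero_or_pos N with h | h
  · subst h; simpa using hM0
  · have hN : (0 : ℝ) < N := by exact_mod_cast h
    rw [abs_mul, abs_of_pos (inv_pos.mpr hN)]
    have h1 : |∑ n ∈ Finset.range N, u n| ≤ ∑ n ∈ Finset.range N, M :=
      (Finset.abs_sum_le_sum_abs _ _).trans (Finset.sum_le_sum fun n _ => hM n)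
    rw [Finset.sum_const, Finset.card_range, nsmul_eq_mul] at h1
    calc (N : ℝ)⁻¹ * |∑ n ∈ Finset.range N, u n| ≤ (N : ℝ)⁻¹ * (N * M) :=
          mul_le_mul_of_nonneg_left h1 (inv_nonneg.mpr hN.le)
      _ = M := by field_simp

theorem four_point {A B C D K m l : ℝ} (hC : 0 ≤ C)
    (h1 : A ^ 2 + C ^ 2 ≤ B ^ 2 + D ^ 2 + K) (h2 : B ^ 2 + D ^ 2 ≤ A ^ 2 + C ^ 2 + K)
    (h3 : |A - B| ≤ m) (h4 : |C - D| ≤ m) (h5 : |B - C| ≤ l) :
    2 * C * |A - B + (C - D)| ≤ K + 2 * m ^ 2 + 2 * m * l := by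
  have hm : 0 ≤ m := (abs_nonneg _).trans h3
  have hl : 0 ≤ l := (abs_nonneg _).trans h5
  have e1 : 2 * C * (A - B + (C - D)) = (A ^ 2 + C ^ 2 - (B ^ 2 + D ^ 2)) -
      (A - B) * ((A - B) + 2 * (B - C)) - (C - D) * (-(C - D)) := by ring
  have e2 : 2 * C * |A - B + (C - D)| = |2 * C * (A - B + (C - D))| := by
    rw [abs_mul, abs_of_nonneg (by positivity : (0 : ℝ) ≤ 2 * C)]
  rw [e2, e1]
  have b1 : |A ^ 2 + C ^ 2 - (B ^ 2 + D ^ 2)| ≤ K := by
    rw [abs_le]; constructor <;> linarith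
  have b2 : |(A - B) * ((A - B) + 2 * (B - C))| ≤ m * (m + 2 * l) := by
    rw [abs_mul]
    refine mul_le_mul h3 ?_ (abs_nonneg _) hm
    refine (abs_add_le _ _).trans ?_
    rw [abs_mul, abs_of_pos (by norm_num : (0 : ℝ) < 2)]
    linarith
  have b3 : |(C - D) * (-(C - D))| ≤ m * m := by
    rw [abs_mul, abs_neg]
    exact mul_le_mul h4 h4 (abs_nonneg _) hm
  calc |(A ^ 2 + C ^ 2 - (B ^ 2 + D ^ 2)) - (A - B) * ((A - B) + 2 * (B - C)) -
        (C - D) * (-(C - D))| ≤ |(A ^ 2 + C ^ 2 - (B ^ 2 + D ^ 2)) -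
          (A - B) * ((A - B) + 2 * (B - C))| + |(C - D) * (-(C - D))| := abs_sub _ _
    _ ≤ |A ^ 2 + C ^ 2 - (B ^ 2 + D ^ 2)| + |(A - B) * ((A - B) + 2 * (B - C))| +
        |(C - D) * (-(C - D))| := by
          have := abs_sub (A ^ 2 + C ^ 2 - (B ^ 2 + D ^ 2)) ((A - B) * ((A - B) + 2 * (B - C)))
          linarith
    _ ≤ K + 2 * m ^ 2 + 2 * m * l := by nlinarith

variable {G : Type*} [Group G] {X : Type*} [PseudoMetricSpace X] [MulAction G X]

/-- Busemann type sequence -/
def bus (g : G) (o : X) (z : G) (n : ℕ) : ℝ := dist (z⁻¹ • o) (g ^ n • o) - dist o (g ^ n • o)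

variable [IsIsometricSMul G X]

theorem bus_bound (g : G) (o : X) (z : G) (n : ℕ) : |bus g o z n| ≤ dist o (z • o) := by
  unfold bus
  have h1 := abs_dist_sub_le (z⁻¹ • o) o (g ^ n • o)
  have h2 : dist (z⁻¹ • o) o = dist o (z • o) := by
    rw [← dist_smul z (z⁻¹ • o) o, smul_inv_smul]
  rw [← h2]; exact h1

theorem bus_mul (g : G) (o : X) (z : G) {w : G} (hw : Commute w g) (n : ℕ) :
    bus g o (z * w) n = dist (z⁻¹ • o) (g ^ n • w • o) - dist o (g ^ n • o) := by
  unfold bus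
  congr 1
  rw [mul_inv_rev, mul_smul, ← dist_smul w (w⁻¹ • z⁻¹ • o), smul_inv_smul, smul_smul, smul_smul,
    (hw.pow_right n).eq]

theorem bus_eq (g : G) (o : X) {w : G} (hw : Commute w g) (n : ℕ) :
    bus g o w n = dist o (g ^ n • w • o) - dist o (g ^ n • o) := by
  have := bus_mul g o 1 hw n
  simpa using this

/-- the isometric action criterion -/
theorem hasChar_of_round
    (hX : ∀ x y p q : X, dist x q ^ 2 + dist y p ^ 2 ≤
      dist x y ^ 2 + dist y q ^ 2 + dist q p ^ 2 + dist p x ^ 2)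
    (g : G) (o : X) (c : ℝ) (hc : 0 < c) (hg : ∀ n : ℕ, c * n ≤ dist o (g ^ n • o)) :
    HasChar g := by
  have hCinf : Tendsto (fun n : ℕ => dist o (g ^ n • o)) atTop atTop := by
    refine tendsto_atTop_mono hg ?_
    exact Tendsto.const_mul_atTop hc tendsto_natCast_atTop_atTop
  have hlim : ∀ z w : G, Commute w g →
      Tendsto (fun n => bus g o (z * w) n - bus g o z n - bus g o w n) atTop (𝓝 0) := by
    intro z w hw
    set K' : ℝ := (dist (z⁻¹ • o) o ^ 2 + dist o (w • o) ^ 2) + 2 * (dist o (w • o)) ^ 2 +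
      2 * (dist o (w • o)) * dist (z⁻¹ • o) o with hK'
    rw [tendsto_zero_iff_abs_tendsto_zero]
    have hub : ∀ᶠ n : ℕ in atTop, (abs ∘ fun n => bus g o (z * w) n - bus g o z n - bus g o w n) n ≤
        K' / (2 * dist o (g ^ n • o)) := by
      filter_upwards [hCinf.eventually_gt_atTop 0] with n hn
      have e1 : bus g o (z * w) n - bus g o z n - bus g o w n =
          dist (z⁻¹ • o) (g ^ n • w • o) - dist (z⁻¹ • o) (g ^ n • o) +
          (dist o (g ^ n • o) - dist o (g ^ n • w • o)) := by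
        rw [bus_mul g o z hw n, bus_eq g o hw n]
        unfold bus
        ring
      have hpp : dist (g ^ n • o) (g ^ n • w • o) = dist o (w • o) := dist_smul _ _ _
      have q1 := hX (z⁻¹ • o) o (g ^ n • o) (g ^ n • w • o)
      have q2 := hX (z⁻¹ • o) o (g ^ n • w • o) (g ^ n • o)
      have fp := four_point (A := dist (z⁻¹ • o) (g ^ n • w • o)) (B := dist (z⁻¹ • o) (g ^ n • o))
        (C := dist o (g ^ n • o)) (D := dist o (g ^ n • w • o))
        (K := dist (z⁻¹ • o) o ^ 2 + dist o (w • o) ^ 2) (m := dist o (w • o))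
        (l := dist (z⁻¹ • o) o) dist_nonneg
        (by
          rw [dist_comm (g ^ n • w • o) (g ^ n • o), hpp, dist_comm (g ^ n • o) (z⁻¹ • o)] at q1
          linarith)
        (by
          rw [hpp, dist_comm (g ^ n • w • o) (z⁻¹ • o)] at q2
          linarith)
        (by
          have := abs_dist_sub_le (g ^ n • w • o) (g ^ n • o) (z⁻¹ • o)
          rw [dist_comm (g ^ n • w • o) (g ^ n • o), hpp] at this
          rw [dist_comm (z⁻¹ • o) (g ^ n • w • o), dist_comm (z⁻¹ • o) (g ^ n • o)]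
          exact this)
        (by
          have := abs_dist_sub_le (g ^ n • o) (g ^ n • w • o) o
          rw [hpp] at this
          rw [dist_comm o (g ^ n • w • o), dist_comm o (g ^ n • o)]
          exact this)
        (abs_dist_sub_le _ _ _)
      simp only [Function.comp]
      rw [e1, le_div_iff₀ (by positivity)]
      calc _ = 2 * dist o (g ^ n • o) * |dist (z⁻¹ • o) (g ^ n • w • o) -
            dist (z⁻¹ • o) (g ^ n • o) + (dist o (g ^ n • o) - dist o (g ^ n • w • o))| := by ring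
        _ ≤ K' := fp
    refine squeeze_zero' (Eventually.of_forall fun n => abs_nonneg _) hub ?_
    refine Tendsto.div_atTop tendsto_const_nhds ?_
    exact Tendsto.const_mul_atTop (by norm_num) hCinf
  have hbd : ∀ z N, |ces (bus g o z) N| ≤ dist o (z • o) := fun z N =>
    ces_bound (bus_bound g o z) N
  have hT : ∀ z, Tendsto (ces (bus g o z)) (hyperfilter ℕ : Filter ℕ)
      (𝓝 (ulim (ces (bus g o z)))) := fun z => tendsto_ulim (hbd z)
  refine ⟨fun z => ulim (ces (bus g o z)), fun z => dist o (z • o), ?_⟩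
  refine { hom := ?_, ne := ?_, sub := ?_, dom := ?_ }
  · intro z w hz hw
    have h1 := (hlim z w hw).cesaro.mono_left hyper_le_atTop
    have h2 := ((hT (z * w)).sub (hT z)).sub (hT w)
    have h3 : (fun N : ℕ => (N : ℝ)⁻¹ * ∑ n ∈ Finset.range N,
        (bus g o (z * w) n - bus g o z n - bus g o w n)) =
        fun N => ces (bus g o (z * w)) N - ces (bus g o z) N - ces (bus g o w) N := by
      funext N
      unfold ces
      rw [Finset.sum_sub_distrib, Finset.sum_sub_distrib]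
      ring
    rw [h3] at h1
    have h4 := tendsto_nhds_unique h1 h2
    linarith
  · have h1 : ∀ᶠ N : ℕ in (hyperfilter ℕ : Filter ℕ), c ≤ ces (bus g o g) N := by
      have : ∀ᶠ N : ℕ in atTop, c ≤ ces (bus g o g) N := by
        filter_upwards [eventually_gt_atTop 0] with N hN
        have hN' : (0 : ℝ) < N := by exact_mod_cast hN
        unfold ces
        have e : ∀ n, bus g o g n = dist o (g ^ (n + 1) • o) - dist o (g ^ n • o) := by
          intro n
          rw [bus_eq g o (Commute.refl g) n, smul_smul, ← pow_succ]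
        simp only [e]
        rw [Finset.sum_range_sub (fun n => dist o (g ^ n • o))]
        simp only [pow_zero, one_smul, dist_self, sub_zero]
        rw [inv_mul_eq_div, le_div_iff₀ hN']
        exact hg N
      exact hyper_le_atTop this
    have h2 : c ≤ ulim (ces (bus g o g)) := ge_of_tendsto (hT g) h1
    show ulim (ces (bus g o g)) ≠ 0
    linarith
  · intro x y
    show dist o ((x * y) • o) ≤ dist o (x • o) + dist o (y • o)
    rw [mul_smul]
    have := dist_triangle o (x • o) (x • y • o)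
    rwa [dist_smul] at this
  · intro z _
    have h1 := (hT z).abs
    exact le_of_tendsto h1 (Eventually.of_forall fun N => hbd z N)

end

end Vale.Agent.P184
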