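import Mathlib

namespace Vale.Agent.P184

/-- `e` is an idempotent `q × q` matrix over `ℓ¹(G)`: every entry is an absolutely summable function
on `G`, and `e * e = e` for matrix multiplication and convolution
`(a * b)(g) = ∑ₕ a(h) b(h⁻¹ g)`. -/
structure IsL1Idempotent {G : Type*} [Group G] {q : ℕ}
    (e : Matrix (Fin q) (Fin q) (G → ℂ)) : Prop where
  summable : ∀ i j, Summable fun g => ‖e i j g‖
  idem : ∀ i j g, e i j g = ∑ k, ∑' h, e i k h * e k j (h⁻¹ * g)

/-- The coefficient `τ_C(e)` of the Hattori-Stallings trace at the conjugacy class `C`. -/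
noncomputable def hsTrace {G : Type*} [Group G] {q : ℕ} (e : Matrix (Fin q) (Fin q) (G → ℂ))
    (C : ConjClasses G) : ℂ :=
  ∑' g : C.carrier, ∑ i, e i i g

/-- The coefficient at the conjugacy class of `g` vanishes for all idempotent matrices. -/
def TraceVanishesAt {G : Type*} [Group G] (g : G) : Prop :=
  ∀ (q : ℕ) (e : Matrix (Fin q) (Fin q) (G → ℂ)), IsL1Idempotent e →
    hsTrace e (ConjClasses.mk g) = 0

/-- The statement of Q1 for the group `G`. -/
def L1Bass (G : Type*) [Group G] : Prop :=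
  ∀ (q : ℕ) (e : Matrix (Fin q) (Fin q) (G → ℂ)), IsL1Idempotent e →
    ∃ F : Finset (ConjClasses G), (∀ C ∈ F, ∀ g ∈ C.carrier, IsOfFinOrder g) ∧
      ∀ C : ConjClasses G, C ∉ F → hsTrace e C = 0

/-- `g` has a dominated character: a homomorphism from the centralizer of `g` to the reals which is
nonzero at `g` and bounded by a subadditive function on `G`. -/
def HasDominatedCharacter {G : Type*} [Group G] (g : G) : Prop :=
  ∃ (χ : Subgroup.centralizer ({g} : Set G) →* Multiplicative ℝ) (L : G → ℝ),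
    (∀ x y, L (x * y) ≤ L x + L y) ∧
    (∀ z : Subgroup.centralizer ({g} : Set G), |Multiplicative.toAdd (χ z)| ≤ L z) ∧
    ∀ z : Subgroup.centralizer ({g} : Set G), (z : G) = g → χ z ≠ 1

/-- `X` is a CAT(0) space: a geodesic metric space with the CN inequality of Bruhat and Tits. -/
structure IsCAT0 (X : Type*) [MetricSpace X] : Prop where
  geodesic : ∀ x y : X, ∃ γ : ℝ → X, γ 0 = x ∧ γ (dist x y) = y ∧
    ∀ s ∈ Set.Icc 0 (dist x y), ∀ t ∈ Set.Icc 0 (dist x y), dist (γ s) (γ t) = |s - t|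
  cn : ∀ x y m z : X, dist x m = dist x y / 2 → dist y m = dist x y / 2 →
    dist z m ^ 2 ≤ dist z x ^ 2 / 2 + dist z y ^ 2 / 2 - dist x y ^ 2 / 4

end Vale.Agent.P184
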