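import Mathlib
import Vale.Agent.P184.Statement
import Vale.Agent.P184.Round
import Vale.Agent.P184.Amen
import Vale.Agent.P184.LinearGen
import Vale.Agent.P184.PL

namespace Vale.Agent.P184

theorem TraceVanishesAt.of {G : Type*} [Group G] {g : G} (h : VanishesAt g) :
    TraceVanishesAt g := by
  intro q e he
  have h1 := h q (fun i j => e i j) he.summable he.idem
  have hset : (ConjClasses.mk g).carrier = {x : G | IsConj g x} := by
    ext x
    rw [ConjClasses.mem_carrier_iff_mk_eq, ConjClasses.mk_eq_mk_iff_isConj]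
    exact ⟨fun h => h.symm, fun h => h.symm⟩
  unfold hsTrace
  have hsum : ∀ i, Summable fun x : (ConjClasses.mk g).carrier => e i i (x : G) := fun i =>
    (Summable.of_norm (he.summable i i)).subtype _
  rw [Summable.tsum_finsetSum fun i _ => hsum i]
  rw [← h1]
  refine Finset.sum_congr rfl fun i _ => ?_
  rw [hset]
  rfl

theorem L1Bass.of {G : Type*} [Group G]
    (h : ∀ g : G, ¬ IsOfFinOrder g → TraceVanishesAt g)
    (hfin : {C : ConjClasses G | ∃ g ∈ C.carrier, IsOfFinOrder g}.Finite) : L1Bass G := by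
  intro q e he
  refine ⟨hfin.toFinset, ?_, ?_⟩
  · intro C hC g hg
    rw [Set.Finite.mem_toFinset] at hC
    obtain ⟨g', hg', hfo⟩ := hC
    rw [ConjClasses.mem_carrier_iff_mk_eq] at hg hg'
    have hconj : IsConj g' g := by
      rw [← ConjClasses.mk_eq_mk_iff_isConj, hg, hg']
    obtain ⟨c, hc⟩ := isConj_iff.mp hconj
    rw [isOfFinOrder_iff_pow_eq_one] at hfo ⊢
    obtain ⟨n, hn, h1⟩ := hfo
    refine ⟨n, hn, ?_⟩
    rw [← hc, conj_pow, h1]
    simp
  · intro C hC
    rw [Set.Finite.mem_toFinset] at hC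
    obtain ⟨g, rfl⟩ := ConjClasses.mk_surjective C
    refine h g ?_ q e he
    intro hg
    exact hC ⟨g, ConjClasses.mem_carrier_mk, hg⟩

theorem L1Bass.of_torsionFree {G : Type*} [Group G]
    (htf : ∀ g : G, IsOfFinOrder g → g = 1)
    (h : ∀ g : G, g ≠ 1 → TraceVanishesAt g) : L1Bass G := by
  refine L1Bass.of (fun g hg => h g ?_) ?_
  · rintro rfl
    exact hg IsOfFinOrder.one
  · refine (Set.finite_singleton (ConjClasses.mk (1 : G))).subset ?_
    rintro C ⟨g, hg, hfo⟩
    rw [htf g hfo] at hg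
    rw [ConjClasses.mem_carrier_iff_mk_eq] at hg
    exact hg.symm

theorem HasChar.of_dominated {G : Type*} [Group G] {g : G} (h : HasDominatedCharacter g) :
    HasChar g := by
  classical
  obtain ⟨χ, L, hL, hb, hne⟩ := h
  let f : G → ℝ := fun z => if hz : z ∈ Subgroup.centralizer ({g} : Set G) then
    Multiplicative.toAdd (χ ⟨z, hz⟩) else 0
  have hmem : ∀ z, Commute z g → z ∈ Subgroup.centralizer ({g} : Set G) := fun z hz => mem_Zc.mpr hz
  have hf : ∀ z (hz : Commute z g), f z = Multiplicative.toAdd (χ ⟨z, hmem z hz⟩) := by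
    intro z hz
    exact dif_pos (hmem z hz)
  refine ⟨f, L, ?_⟩
  refine { hom := ?_, ne := ?_, sub := hL, dom := ?_ }
  · intro z w hz hw
    rw [hf z hz, hf w hw, hf (z * w) (hz.mul_left hw), ← toAdd_mul, ← map_mul]
    rfl
  · rw [hf g (Commute.refl g)]
    intro h0
    apply hne ⟨g, hmem g (Commute.refl g)⟩ rfl
    exact Multiplicative.toAdd.injective h0
  · intro z hz
    rw [hf z hz]
    exact hb ⟨z, hmem z hz⟩

theorem HasChar.dominated {G : Type*} [Group G] {g : G} (h : HasChar g) :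
    HasDominatedCharacter g := by
  obtain ⟨χ, L, D⟩ := h
  have hc : ∀ z : Subgroup.centralizer ({g} : Set G), Commute (z : G) g := fun z => mem_Zc.mp z.2
  refine ⟨{ toFun := fun z => Multiplicative.ofAdd (χ z), map_one' := ?_, map_mul' := ?_ }, L,
    D.sub, ?_, ?_⟩
  · show Multiplicative.ofAdd (χ 1) = 1
    rw [D.toSubChar.chi_one]; rfl
  · intro z w
    show Multiplicative.ofAdd (χ ((z : G) * w)) = _
    rw [D.hom z w (hc z) (hc w)]; rfl
  · intro z
    exact D.dom z (hc z)
  · intro z hz h1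
    apply D.ne
    rw [← hz]
    exact Multiplicative.ofAdd.injective h1

/-- CAT(0) spaces have the four point inequality of roundness two -/
theorem IsCAT0.round {X : Type*} [MetricSpace X] (hX : IsCAT0 X) (x y p q : X) :
    dist x q ^ 2 + dist y p ^ 2 ≤ dist x y ^ 2 + dist y q ^ 2 + dist q p ^ 2 + dist p x ^ 2 := by
  obtain ⟨γ, h0, h1, h2⟩ := hX.geodesic x q
  set d := dist x q with hd
  have hd0 : 0 ≤ d := dist_nonneg
  set m := γ (d / 2) with hm
  have hxm : dist x m = d / 2 := by
    rw [← h0, hm, h2 0 ⟨le_rfl, hd0⟩ (d / 2) ⟨by linarith, by linarith⟩]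
    rw [zero_sub, abs_neg, abs_of_nonneg (by linarith)]
  have hqm : dist q m = d / 2 := by
    rw [← h1, hm, h2 d ⟨hd0, le_rfl⟩ (d / 2) ⟨by linarith, by linarith⟩]
    rw [abs_of_nonneg (by linarith)]; ring
  have c1 := hX.cn x q m y hxm hqm
  have c2 := hX.cn x q m p hxm hqm
  have ht : dist y p ≤ dist y m + dist p m := by
    rw [dist_comm p m]; exact dist_triangle y m p
  have hyp : dist y p ^ 2 ≤ 2 * (dist y m ^ 2 + dist p m ^ 2) := by
    have h3 : dist y p ^ 2 ≤ (dist y m + dist p m) ^ 2 :=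
      pow_le_pow_left₀ dist_nonneg ht 2
    nlinarith [sq_nonneg (dist y m - dist p m)]
  rw [dist_comm x y, dist_comm q p]
  rw [← hd] at c1 c2
  nlinarith

end Vale.Agent.P184
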