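import Mathlib
import Vale.Agent.P184.Bridge

namespace Vale.Agent.P184

universe u v

theorem final_local (G : Type u) [Group G] (g : G)
    (h : ∀ H : Subgroup G, H.FG → ∀ h : H, IsConj g (h : G) → HasDominatedCharacter h) :
    TraceVanishesAt g :=
  TraceVanishesAt.of (vanishesAt_of_local g fun H hH h' hh => HasChar.of_dominated (h H hH h' hh))

theorem final_global (G : Type u) [Group G] (g : G) (h : HasDominatedCharacter g) :
    TraceVanishesAt g :=
  TraceVanishesAt.of (HasChar.of_dominated h).vanishesAt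

theorem final_full (G : Type u) [Group G]
    (h : ∀ g : G, ¬ IsOfFinOrder g → HasDominatedCharacter g)
    (hfin : {C : ConjClasses G | ∃ g ∈ C.carrier, IsOfFinOrder g}.Finite) : L1Bass G :=
  L1Bass.of (fun g hg => final_global G g (h g hg)) hfin

theorem final_linear (G : Type u) [Group G] (K : Type v) [Field K] (n : ℕ)
    (ρ : G →* GL (Fin n) K) (g : G)
    (hg : ∀ m : ℕ, 0 < m → ¬ IsNilpotent ((ρ g : Matrix (Fin n) (Fin n) K) ^ m - 1)) :
    TraceVanishesAt g :=
  TraceVanishesAt.of (vanishesAt_linear ((Units.coeHom _).comp ρ) g hg)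

theorem final_charP (G : Type u) [Group G] (K : Type v) [Field K] (p : ℕ) [Fact p.Prime]
    [CharP K p] (n : ℕ) (ρ : G →* GL (Fin n) K) (hρ : Function.Injective ρ) (g : G)
    (hg : ¬ IsOfFinOrder g) : TraceVanishesAt g :=
  TraceVanishesAt.of (vanishesAt_linear_charP p ((Units.coeHom _).comp ρ)
    (Units.val_injective.comp hρ) g hg)

theorem final_charP_full (G : Type u) [Group G] (K : Type v) [Field K] (p : ℕ) [Fact p.Prime]
    [CharP K p] (n : ℕ) (ρ : G →* GL (Fin n) K) (hρ : Function.Injective ρ)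
    (hfin : {C : ConjClasses G | ∃ g ∈ C.carrier, IsOfFinOrder g}.Finite) : L1Bass G :=
  L1Bass.of (fun g hg => final_charP G K p n ρ hρ g hg) hfin

theorem PL_hasChar {G : Type u} [Group G] (φ : G →* (ℝ ≃o ℝ)) (hφ : Function.Injective φ)
    (hPL : ∀ x, IsPL (φ x)) (hsupp : ∀ x, ∃ M : ℝ, ∀ t ≤ M, φ x t = t) (g : G) (hg : g ≠ 1) :
    HasChar g :=
  hasChar_of_PL φ hPL hsupp g (fun h => hg (hφ (by rw [h, map_one])))

theorem PL_torsionFree {G : Type u} [Group G] (φ : G →* (ℝ ≃o ℝ)) (hφ : Function.Injective φ)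
    (hPL : ∀ x, IsPL (φ x)) (hsupp : ∀ x, ∃ M : ℝ, ∀ t ≤ M, φ x t = t) (g : G)
    (hg : IsOfFinOrder g) : g = 1 := by
  by_contra hne
  obtain ⟨χ, L, D⟩ := PL_hasChar φ hφ hPL hsupp g hne
  obtain ⟨n, hn, hpow⟩ := isOfFinOrder_iff_pow_eq_one.mp hg
  apply D.ne
  have h2 : ∀ k : ℕ, χ (g ^ k) = k * χ g := by
    intro k
    induction k with
    | zero => simp [D.toSubChar.chi_one]
    | succ k ih =>
      rw [pow_succ, D.hom _ _ ((Commute.refl g).pow_left k) (Commute.refl g), ih]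
      push_cast; ring
  have h3 := h2 n
  rw [hpow, D.toSubChar.chi_one] at h3
  have h4 : (n : ℝ) ≠ 0 := by exact_mod_cast hn.ne'
  rcases mul_eq_zero.mp h3.symm with h5 | h5
  · exact absurd h5 h4
  · exact h5

theorem PL_vanishes {G : Type u} [Group G] (φ : G →* (ℝ ≃o ℝ)) (hφ : Function.Injective φ)
    (hPL : ∀ x, IsPL (φ x)) (hsupp : ∀ x, ∃ M : ℝ, ∀ t ≤ M, φ x t = t) (g : G)
    (hg : g ≠ 1) : TraceVanishesAt g :=
  TraceVanishesAt.of (PL_hasChar φ hφ hPL hsupp g hg).vanishesAt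

theorem final_CAT0 (G : Type u) [Group G] (X : Type v) [MetricSpace X] [MulAction G X]
    [IsIsometricSMul G X] (hX : IsCAT0 X) (o : X) (g : G) (c : ℝ) (hc : 0 < c)
    (hg : ∀ n : ℕ, c * n ≤ dist o (g ^ n • o)) : TraceVanishesAt g :=
  TraceVanishesAt.of (hasChar_of_round hX.round g o c hc hg).vanishesAt

theorem final_round (G : Type u) [Group G] (X : Type v) [PseudoMetricSpace X] [MulAction G X]
    [IsIsometricSMul G X] (hX : ∀ x y p q : X, dist x q ^ 2 + dist y p ^ 2 ≤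
      dist x y ^ 2 + dist y q ^ 2 + dist q p ^ 2 + dist p x ^ 2) (o : X) (g : G) (c : ℝ)
    (hc : 0 < c) (hg : ∀ n : ℕ, c * n ≤ dist o (g ^ n • o)) : TraceVanishesAt g :=
  TraceVanishesAt.of (hasChar_of_round hX g o c hc hg).vanishesAt

theorem final_CAT0_full (G : Type u) [Group G] (X : Type v) [MetricSpace X] [MulAction G X]
    [IsIsometricSMul G X] (hX : IsCAT0 X)
    (hg : ∀ g : G, ¬ IsOfFinOrder g → ∃ (o : X) (c : ℝ), 0 < c ∧
      ∀ n : ℕ, c * n ≤ dist o (g ^ n • o))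
    (hfin : {C : ConjClasses G | ∃ g ∈ C.carrier, IsOfFinOrder g}.Finite) : L1Bass G := by
  refine L1Bass.of (fun g hgo => ?_) hfin
  obtain ⟨o, c, hc, h⟩ := hg g hgo
  exact final_CAT0 G X hX o g c hc h

theorem final_amenable (G : Type u) [Group G] (g : G) (L : G → ℝ)
    (hL : ∀ x y, L (x * y) ≤ L x + L y) (c : ℝ) (hc : 0 < c) (hg : ∀ n : ℕ, c * n ≤ L (g ^ n))
    (ham : Amenable (Subgroup.centralizer ({g} : Set G))) : TraceVanishesAt g :=
  TraceVanishesAt.of (hasChar_of_amenable g L hL c hc hg ham).vanishesAt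

end Vale.Agent.P184
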